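import Vale.Agent.Lib.P121.Defs

/-!
An abstract forced-splitting argument for a symmetric three-marginal transport problem.
-/

namespace Vale.Agent.Lib.P121

open MeasureTheory Set
open scoped ENNReal

variable {X : Type*} [MeasurableSpace X]

/-- `(a, b, d)` is a permutation of `(x, y, z)`. -/
def Perm3 (a b d x y z : X) : Prop :=
  (a = x ∧ b = y ∧ d = z) ∨ (a = x ∧ b = z ∧ d = y) ∨ (a = y ∧ b = x ∧ d = z) ∨
    (a = y ∧ b = z ∧ d = x) ∨ (a = z ∧ b = x ∧ d = y) ∨ (a = z ∧ b = y ∧ d = x)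

/-- The data of the construction. -/
structure SplitData (c : X → X → X → ℝ≥0∞) where
  ν : Measure X
  I : Set X
  f₁ : X → X
  f₂ : X → X
  f₃ : X → X
  f₄ : X → X
  V : X → ℝ≥0∞
  K : ℝ≥0∞
  B : ℝ≥0∞
  hc : Measurable (fun p : X × X × X => c p.1 p.2.1 p.2.2)
  symm₁ : ∀ a b d, c a b d = c b a d
  symm₂ : ∀ a b d, c a b d = c a d b
  hI : MeasurableSet I
  hνI : ν Iᶜ = 0
  hν : ν univ = 1 / 6
  m₁ : Measurable f₁
  m₂ : Measurable f₂
  m₃ : Measurable f₃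
  m₄ : Measurable f₄
  inj₁ : InjOn f₁ I
  inj₂ : InjOn f₂ I
  inj₃ : InjOn f₃ I
  inj₄ : InjOn f₄ I
  mi₁ : ∀ S, MeasurableSet S → S ⊆ I → MeasurableSet (f₁ '' S)
  mi₂ : ∀ S, MeasurableSet S → S ⊆ I → MeasurableSet (f₂ '' S)
  mi₃ : ∀ S, MeasurableSet S → S ⊆ I → MeasurableSet (f₃ '' S)
  mi₄ : ∀ S, MeasurableSet S → S ⊆ I → MeasurableSet (f₄ '' S)
  d₁ : ∀ x ∈ I, f₁ x ∉ I
  d₂ : ∀ x ∈ I, f₂ x ∉ I
  d₃ : ∀ x ∈ I, f₃ x ∉ I
  d₄ : ∀ x ∈ I, f₄ x ∉ I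
  d₁₂ : ∀ x ∈ I, ∀ y ∈ I, f₁ x ≠ f₂ y
  d₁₃ : ∀ x ∈ I, ∀ y ∈ I, f₁ x ≠ f₃ y
  d₁₄ : ∀ x ∈ I, ∀ y ∈ I, f₁ x ≠ f₄ y
  d₂₃ : ∀ x ∈ I, ∀ y ∈ I, f₂ x ≠ f₃ y
  d₂₄ : ∀ x ∈ I, ∀ y ∈ I, f₂ x ≠ f₄ y
  d₃₄ : ∀ x ∈ I, ∀ y ∈ I, f₃ x ≠ f₄ y
  hV : Measurable V
  hK : K ≠ ⊤
  hB : B ≠ ⊤
  dual : ∀ a ∈ I ∪ f₁ '' I ∪ f₂ '' I ∪ f₃ '' I ∪ f₄ '' I,
    ∀ b ∈ I ∪ f₁ '' I ∪ f₂ '' I ∪ f₃ '' I ∪ f₄ '' I,
    ∀ d ∈ I ∪ f₁ '' I ∪ f₂ '' I ∪ f₃ '' I ∪ f₄ '' I, V a + V b + V d ≤ c a b d + K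
  eq₁ : ∀ x ∈ I, V x + V (f₁ x) + V (f₂ x) = c x (f₁ x) (f₂ x) + K
  eq₂ : ∀ x ∈ I, V x + V (f₃ x) + V (f₄ x) = c x (f₃ x) (f₄ x) + K
  bd₁ : ∀ x ∈ I, c x (f₁ x) (f₂ x) ≤ B
  bd₂ : ∀ x ∈ I, c x (f₃ x) (f₄ x) ≤ B
  rigid : ∀ a ∈ I ∪ f₁ '' I ∪ f₂ '' I ∪ f₃ '' I ∪ f₄ '' I,
    ∀ b ∈ I ∪ f₁ '' I ∪ f₂ '' I ∪ f₃ '' I ∪ f₄ '' I,
    ∀ d ∈ I ∪ f₁ '' I ∪ f₂ '' I ∪ f₃ '' I ∪ f₄ '' I, V a + V b + V d = c a b d + K →
      ∃ x ∈ I, Perm3 a b d x (f₁ x) (f₂ x) ∨ Perm3 a b d x (f₃ x) (f₄ x)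

namespace SplitData

variable {c : X → X → X → ℝ≥0∞} (D : SplitData c)

/-- The measure built from the data. -/
noncomputable def μ : Measure X :=
  D.ν + D.ν + D.ν.map D.f₁ + D.ν.map D.f₂ + D.ν.map D.f₃ + D.ν.map D.f₄

/-- The support set. -/
def Supp : Set X := D.I ∪ D.f₁ '' D.I ∪ D.f₂ '' D.I ∪ D.f₃ '' D.I ∪ D.f₄ '' D.I

theorem meas_Supp : MeasurableSet D.Supp :=
  ((((D.hI.union (D.mi₁ _ D.hI subset_rfl)).union (D.mi₂ _ D.hI subset_rfl)).union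
    (D.mi₃ _ D.hI subset_rfl)).union (D.mi₄ _ D.hI subset_rfl))

theorem mem_Supp_of_mem {x : X} (hx : x ∈ D.I) : x ∈ D.Supp := by
  left; left; left; left; exact hx

theorem f₁_mem {x : X} (hx : x ∈ D.I) : D.f₁ x ∈ D.Supp := by
  left; left; left; right; exact mem_image_of_mem _ hx

theorem f₂_mem {x : X} (hx : x ∈ D.I) : D.f₂ x ∈ D.Supp := by
  left; left; right; exact mem_image_of_mem _ hx

theorem f₃_mem {x : X} (hx : x ∈ D.I) : D.f₃ x ∈ D.Supp := by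
  left; right; exact mem_image_of_mem _ hx

theorem f₄_mem {x : X} (hx : x ∈ D.I) : D.f₄ x ∈ D.Supp := by
  right; exact mem_image_of_mem _ hx

/-- A set whose pullbacks under all pieces are contained in the complement of `I` is null. -/
theorem μ_eq_zero {s : Set X} (hs : MeasurableSet s) (h0 : s ⊆ D.Iᶜ)
    (h1 : ∀ x ∈ D.I, D.f₁ x ∉ s) (h2 : ∀ x ∈ D.I, D.f₂ x ∉ s)
    (h3 : ∀ x ∈ D.I, D.f₃ x ∉ s) (h4 : ∀ x ∈ D.I, D.f₄ x ∉ s) : D.μ s = 0 := by
  have hν : D.ν s = 0 := measure_mono_null h0 D.hνI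
  have key : ∀ f : X → X, Measurable f → (∀ x ∈ D.I, f x ∉ s) → D.ν.map f s = 0 := by
    intro f hf h
    rw [Measure.map_apply hf hs]
    apply measure_mono_null _ D.hνI
    intro x hx hxI
    exact h x hxI hx
  simp only [μ, Measure.add_apply, hν, key _ D.m₁ h1, key _ D.m₂ h2, key _ D.m₃ h3,
    key _ D.m₄ h4, add_zero]

theorem μ_Supp_compl : D.μ D.Suppᶜ = 0 := by
  apply D.μ_eq_zero D.meas_Supp.compl
  · intro x hx hxI
    exact hx (D.mem_Supp_of_mem hxI)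
  · intro x hx hc; exact hc (D.f₁_mem hx)
  · intro x hx hc; exact hc (D.f₂_mem hx)
  · intro x hx hc; exact hc (D.f₃_mem hx)
  · intro x hx hc; exact hc (D.f₄_mem hx)

theorem ν_lintegral_compl_I {g h : X → ℝ≥0∞} (hgh : ∀ x ∈ D.I, g x = h x) :
    ∫⁻ x, g x ∂D.ν = ∫⁻ x, h x ∂D.ν := by
  apply lintegral_congr_ae
  have : ∀ᵐ x ∂D.ν, x ∈ D.I := by
    rw [ae_iff]; exact D.hνI
  filter_upwards [this] with x hx using hgh x hx

theorem μ_univ : D.μ univ = 1 := by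
  simp only [μ, Measure.add_apply]
  rw [Measure.map_apply D.m₁ MeasurableSet.univ, Measure.map_apply D.m₂ MeasurableSet.univ,
    Measure.map_apply D.m₃ MeasurableSet.univ, Measure.map_apply D.m₄ MeasurableSet.univ]
  simp only [preimage_univ, D.hν]
  have : (1 / 6 : ℝ≥0∞) + 1 / 6 + 1 / 6 + 1 / 6 + 1 / 6 + 1 / 6 = 6 * (1 / 6) := by ring
  rw [this]
  exact ENNReal.mul_div_cancel (by norm_num) (by norm_num)

theorem isProb : IsProbabilityMeasure D.μ := ⟨D.μ_univ⟩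

/-- The six pieces of the explicit plan. -/
noncomputable def π₀ : Measure (X × X × X) :=
  D.ν.map (fun x => (x, D.f₁ x, D.f₂ x)) + D.ν.map (fun x => (D.f₁ x, D.f₂ x, x)) +
    D.ν.map (fun x => (D.f₂ x, x, D.f₁ x)) + D.ν.map (fun x => (x, D.f₃ x, D.f₄ x)) +
    D.ν.map (fun x => (D.f₃ x, D.f₄ x, x)) + D.ν.map (fun x => (D.f₄ x, x, D.f₃ x))

theorem π₀_coupling : IsCoupling3 D.μ D.π₀ := by
  have h1 := D.m₁
  have h2 := D.m₂
  have h3 := D.m₃
  have h4 := D.m₄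
  have mm1 : Measurable (fun x => (x, D.f₁ x, D.f₂ x)) := by fun_prop
  have mm2 : Measurable (fun x => (D.f₁ x, D.f₂ x, x)) := by fun_prop
  have mm3 : Measurable (fun x => (D.f₂ x, x, D.f₁ x)) := by fun_prop
  have mm4 : Measurable (fun x => (x, D.f₃ x, D.f₄ x)) := by fun_prop
  have mm5 : Measurable (fun x => (D.f₃ x, D.f₄ x, x)) := by fun_prop
  have mm6 : Measurable (fun x => (D.f₄ x, x, D.f₃ x)) := by fun_prop
  have mf : Measurable (Prod.fst : X × X × X → X) := measurable_fst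
  have ms1 : Measurable (fun p : X × X × X => p.2.1) := by fun_prop
  have ms2 : Measurable (fun p : X × X × X => p.2.2) := by fun_prop
  refine ⟨?_, ?_, ?_⟩
  · simp only [π₀, μ, Measure.map_add _ _ mf, Measure.map_map mf mm1, Measure.map_map mf mm2,
      Measure.map_map mf mm3, Measure.map_map mf mm4, Measure.map_map mf mm5,
      Measure.map_map mf mm6]
    have e1 : (Prod.fst ∘ fun x => (x, D.f₁ x, D.f₂ x)) = id := rfl
    have e2 : (Prod.fst ∘ fun x => (D.f₁ x, D.f₂ x, x)) = D.f₁ := rfl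
    have e3 : (Prod.fst ∘ fun x => (D.f₂ x, x, D.f₁ x)) = D.f₂ := rfl
    have e4 : (Prod.fst ∘ fun x => (x, D.f₃ x, D.f₄ x)) = id := rfl
    have e5 : (Prod.fst ∘ fun x => (D.f₃ x, D.f₄ x, x)) = D.f₃ := rfl
    have e6 : (Prod.fst ∘ fun x => (D.f₄ x, x, D.f₃ x)) = D.f₄ := rfl
    rw [e1, e2, e3, e4, e5, e6, Measure.map_id]
    abel
  · simp only [π₀, μ, Measure.map_add _ _ ms1, Measure.map_map ms1 mm1, Measure.map_map ms1 mm2,
      Measure.map_map ms1 mm3, Measure.map_map ms1 mm4, Measure.map_map ms1 mm5,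
      Measure.map_map ms1 mm6]
    have e1 : ((fun p : X × X × X => p.2.1) ∘ fun x => (x, D.f₁ x, D.f₂ x)) = D.f₁ := rfl
    have e2 : ((fun p : X × X × X => p.2.1) ∘ fun x => (D.f₁ x, D.f₂ x, x)) = D.f₂ := rfl
    have e3 : ((fun p : X × X × X => p.2.1) ∘ fun x => (D.f₂ x, x, D.f₁ x)) = id := rfl
    have e4 : ((fun p : X × X × X => p.2.1) ∘ fun x => (x, D.f₃ x, D.f₄ x)) = D.f₃ := rfl
    have e5 : ((fun p : X × X × X => p.2.1) ∘ fun x => (D.f₃ x, D.f₄ x, x)) = D.f₄ := rfl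
    have e6 : ((fun p : X × X × X => p.2.1) ∘ fun x => (D.f₄ x, x, D.f₃ x)) = id := rfl
    rw [e1, e2, e3, e4, e5, e6, Measure.map_id]
    abel
  · simp only [π₀, μ, Measure.map_add _ _ ms2, Measure.map_map ms2 mm1, Measure.map_map ms2 mm2,
      Measure.map_map ms2 mm3, Measure.map_map ms2 mm4, Measure.map_map ms2 mm5,
      Measure.map_map ms2 mm6]
    have e1 : ((fun p : X × X × X => p.2.2) ∘ fun x => (x, D.f₁ x, D.f₂ x)) = D.f₂ := rfl
    have e2 : ((fun p : X × X × X => p.2.2) ∘ fun x => (D.f₁ x, D.f₂ x, x)) = id := rfl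
    have e3 : ((fun p : X × X × X => p.2.2) ∘ fun x => (D.f₂ x, x, D.f₁ x)) = D.f₁ := rfl
    have e4 : ((fun p : X × X × X => p.2.2) ∘ fun x => (x, D.f₃ x, D.f₄ x)) = D.f₄ := rfl
    have e5 : ((fun p : X × X × X => p.2.2) ∘ fun x => (D.f₃ x, D.f₄ x, x)) = id := rfl
    have e6 : ((fun p : X × X × X => p.2.2) ∘ fun x => (D.f₄ x, x, D.f₃ x)) = D.f₃ := rfl
    rw [e1, e2, e3, e4, e5, e6, Measure.map_id]
    abel

/-- The cost of the explicit plan. -/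
noncomputable def cost₀ : ℝ≥0∞ :=
  3 * ∫⁻ x, c x (D.f₁ x) (D.f₂ x) ∂D.ν + 3 * ∫⁻ x, c x (D.f₃ x) (D.f₄ x) ∂D.ν

theorem π₀_cost : ∫⁻ p, c p.1 p.2.1 p.2.2 ∂D.π₀ = D.cost₀ := by
  have h1 := D.m₁
  have h2 := D.m₂
  have h3 := D.m₃
  have h4 := D.m₄
  have mm1 : Measurable (fun x => (x, D.f₁ x, D.f₂ x)) := by fun_prop
  have mm2 : Measurable (fun x => (D.f₁ x, D.f₂ x, x)) := by fun_prop
  have mm3 : Measurable (fun x => (D.f₂ x, x, D.f₁ x)) := by fun_prop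
  have mm4 : Measurable (fun x => (x, D.f₃ x, D.f₄ x)) := by fun_prop
  have mm5 : Measurable (fun x => (D.f₃ x, D.f₄ x, x)) := by fun_prop
  have mm6 : Measurable (fun x => (D.f₄ x, x, D.f₃ x)) := by fun_prop
  have hc := D.hc
  simp only [π₀, lintegral_add_measure, lintegral_map hc mm1, lintegral_map hc mm2,
    lintegral_map hc mm3, lintegral_map hc mm4, lintegral_map hc mm5, lintegral_map hc mm6]
  have s1 : ∀ x, c (D.f₁ x) (D.f₂ x) x = c x (D.f₁ x) (D.f₂ x) := fun x => by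
    rw [D.symm₂, D.symm₁]
  have s2 : ∀ x, c (D.f₂ x) x (D.f₁ x) = c x (D.f₁ x) (D.f₂ x) := fun x => by
    rw [D.symm₁, D.symm₂]
  have s3 : ∀ x, c (D.f₃ x) (D.f₄ x) x = c x (D.f₃ x) (D.f₄ x) := fun x => by
    rw [D.symm₂, D.symm₁]
  have s4 : ∀ x, c (D.f₄ x) x (D.f₃ x) = c x (D.f₃ x) (D.f₄ x) := fun x => by
    rw [D.symm₁, D.symm₂]
  simp only [s1, s2, s3, s4, cost₀]
  ring

theorem cost₀_lt_top : D.cost₀ < ⊤ := by
  have hfin : ∀ f g : X → X, (∀ x ∈ D.I, c x (f x) (g x) ≤ D.B) →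
      ∫⁻ x, c x (f x) (g x) ∂D.ν < ⊤ := by
    intro f g h
    have : ∀ᵐ x ∂D.ν, c x (f x) (g x) ≤ D.B := by
      have hI : ∀ᵐ x ∂D.ν, x ∈ D.I := by rw [ae_iff]; exact D.hνI
      filter_upwards [hI] with x hx using h x hx
    calc ∫⁻ x, c x (f x) (g x) ∂D.ν ≤ ∫⁻ _, D.B ∂D.ν := lintegral_mono_ae this
      _ = D.B * D.ν univ := lintegral_const _
      _ < ⊤ := by
        rw [D.hν]
        exact ENNReal.mul_lt_top D.hB.lt_top (by norm_num)
  simp only [cost₀]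
  exact ENNReal.add_lt_top.mpr ⟨ENNReal.mul_lt_top (by norm_num) (hfin _ _ D.bd₁),
    ENNReal.mul_lt_top (by norm_num) (hfin _ _ D.bd₂)⟩

/-- Integral of `V` against `μ`. -/
theorem lintegral_V : 3 * ∫⁻ x, D.V x ∂D.μ = D.cost₀ + D.K := by
  have hV := D.hV
  have h1 := D.m₁
  have h2 := D.m₂
  have h3 := D.m₃
  have h4 := D.m₄
  have e : ∫⁻ x, D.V x ∂D.μ = ∫⁻ x, c x (D.f₁ x) (D.f₂ x) + D.K ∂D.ν
      + ∫⁻ x, c x (D.f₃ x) (D.f₄ x) + D.K ∂D.ν := by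
    have a1 : ∫⁻ x, c x (D.f₁ x) (D.f₂ x) + D.K ∂D.ν
        = ∫⁻ x, D.V x + D.V (D.f₁ x) + D.V (D.f₂ x) ∂D.ν :=
      D.ν_lintegral_compl_I fun x hx => (D.eq₁ x hx).symm
    have a2 : ∫⁻ x, c x (D.f₃ x) (D.f₄ x) + D.K ∂D.ν
        = ∫⁻ x, D.V x + D.V (D.f₃ x) + D.V (D.f₄ x) ∂D.ν :=
      D.ν_lintegral_compl_I fun x hx => (D.eq₂ x hx).symm
    rw [a1, a2]
    have m1 : Measurable fun x => D.V (D.f₁ x) := hV.comp h1
    have m2 : Measurable fun x => D.V (D.f₂ x) := hV.comp h2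
    have m3 : Measurable fun x => D.V (D.f₃ x) := hV.comp h3
    have m4 : Measurable fun x => D.V (D.f₄ x) := hV.comp h4
    rw [lintegral_add_right _ m2, lintegral_add_right _ m1, lintegral_add_right _ m4,
      lintegral_add_right _ m3]
    simp only [μ, lintegral_add_measure, lintegral_map hV h1, lintegral_map hV h2,
      lintegral_map hV h3, lintegral_map hV h4]
    ring
  have hm1 : Measurable fun x => c x (D.f₁ x) (D.f₂ x) := by
    have := D.hc.comp (show Measurable (fun x => (x, D.f₁ x, D.f₂ x)) by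
      have := D.m₁; have := D.m₂; fun_prop)
    exact this
  have hm2 : Measurable fun x => c x (D.f₃ x) (D.f₄ x) := by
    have := D.hc.comp (show Measurable (fun x => (x, D.f₃ x, D.f₄ x)) by
      have := D.m₃; have := D.m₄; fun_prop)
    exact this
  rw [e, lintegral_add_right _ measurable_const, lintegral_add_right _ measurable_const,
    lintegral_const, D.hν, cost₀]
  have : (3 : ℝ≥0∞) * (D.K * (1 / 6) + D.K * (1 / 6)) = D.K := by
    have h6 : (6 : ℝ≥0∞) * (1 / 6) = 1 := ENNReal.mul_div_cancel (by norm_num) (by norm_num)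
    calc (3 : ℝ≥0∞) * (D.K * (1 / 6) + D.K * (1 / 6)) = D.K * (6 * (1 / 6)) := by ring
      _ = D.K := by rw [h6, mul_one]
  calc 3 * (∫⁻ x, c x (D.f₁ x) (D.f₂ x) ∂D.ν + D.K * (1 / 6)
        + (∫⁻ x, c x (D.f₃ x) (D.f₄ x) ∂D.ν + D.K * (1 / 6)))
      = 3 * ∫⁻ x, c x (D.f₁ x) (D.f₂ x) ∂D.ν + 3 * ∫⁻ x, c x (D.f₃ x) (D.f₄ x) ∂D.ν
        + 3 * (D.K * (1 / 6) + D.K * (1 / 6)) := by ring
    _ = _ := by rw [this]

/-- Weak duality: any coupling costs at least the value of the potentials. -/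
theorem weak_duality {π : Measure (X × X × X)} (hπ : IsCoupling3 D.μ π) :
    3 * ∫⁻ x, D.V x ∂D.μ ≤ ∫⁻ p, c p.1 p.2.1 p.2.2 ∂π + D.K := by
  obtain ⟨p1, p2, p3⟩ := hπ
  have mf : Measurable (Prod.fst : X × X × X → X) := measurable_fst
  have ms1 : Measurable (fun p : X × X × X => p.2.1) := by fun_prop
  have ms2 : Measurable (fun p : X × X × X => p.2.2) := by fun_prop
  have hV := D.hV
  have i1 : ∫⁻ p : X × X × X, D.V p.1 ∂π = ∫⁻ x, D.V x ∂D.μ := by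
    rw [← p1, lintegral_map hV mf]
  have i2 : ∫⁻ p : X × X × X, D.V p.2.1 ∂π = ∫⁻ x, D.V x ∂D.μ := by
    conv_rhs => rw [← p2]
    rw [lintegral_map hV ms1]
  have i3 : ∫⁻ p : X × X × X, D.V p.2.2 ∂π = ∫⁻ x, D.V x ∂D.μ := by
    conv_rhs => rw [← p3]
    rw [lintegral_map hV ms2]
  have huniv : π univ = 1 := by
    have := D.μ_univ
    rw [← p1, Measure.map_apply mf MeasurableSet.univ] at this
    simpa using this
  have sup1 : ∀ᵐ p ∂π, p.1 ∈ D.Supp := by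
    rw [ae_iff]
    have := D.μ_Supp_compl
    rw [← p1, Measure.map_apply mf D.meas_Supp.compl] at this
    exact this
  have sup2 : ∀ᵐ p ∂π, p.2.1 ∈ D.Supp := by
    rw [ae_iff]
    have := D.μ_Supp_compl
    rw [← p2, Measure.map_apply ms1 D.meas_Supp.compl] at this
    exact this
  have sup3 : ∀ᵐ p ∂π, p.2.2 ∈ D.Supp := by
    rw [ae_iff]
    have := D.μ_Supp_compl
    rw [← p3, Measure.map_apply ms2 D.meas_Supp.compl] at this
    exact this
  have hle : ∫⁻ p : X × X × X, D.V p.1 + D.V p.2.1 + D.V p.2.2 ∂π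
      ≤ ∫⁻ p, c p.1 p.2.1 p.2.2 + D.K ∂π := by
    apply lintegral_mono_ae
    filter_upwards [sup1, sup2, sup3] with p h1 h2 h3
    exact D.dual _ h1 _ h2 _ h3
  have m2 : Measurable fun p : X × X × X => D.V p.2.1 := hV.comp ms1
  have m3 : Measurable fun p : X × X × X => D.V p.2.2 := hV.comp ms2
  rw [lintegral_add_right _ m3, lintegral_add_right _ m2, i1, i2, i3,
    lintegral_add_right _ measurable_const, lintegral_const, huniv, mul_one] at hle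
  calc 3 * ∫⁻ x, D.V x ∂D.μ = ∫⁻ x, D.V x ∂D.μ + ∫⁻ x, D.V x ∂D.μ + ∫⁻ x, D.V x ∂D.μ := by ring
    _ ≤ _ := hle

/-- The Kantorovich value equals the cost of the explicit plan. -/
theorem value_eq : value3 c D.μ = D.cost₀ := by
  apply le_antisymm
  · calc value3 c D.μ ≤ ∫⁻ p, c p.1 p.2.1 p.2.2 ∂D.π₀ :=
          iInf₂_le D.π₀ D.π₀_coupling
      _ = D.cost₀ := D.π₀_cost
  · apply le_iInf₂
    intro π hπ
    have h := D.weak_duality hπ
    rw [D.lintegral_V] at h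
    exact (ENNReal.add_le_add_iff_right D.hK).mp h

/-- Counting: no plan which is a graph over the first coordinate can be optimal. -/
theorem no_monge : ¬ ∃ T₂ T₃ : X → X, Measurable T₂ ∧ Measurable T₃ ∧ D.μ.map T₂ = D.μ ∧
    D.μ.map T₃ = D.μ ∧ ∫⁻ x, c x (T₂ x) (T₃ x) ∂D.μ = value3 c D.μ := by
  rintro ⟨T₂, T₃, h2, h3, p2, p3, hopt⟩
  rw [D.value_eq] at hopt
  have hV := D.hV
  -- a.e. membership
  have sup1 : ∀ᵐ x ∂D.μ, x ∈ D.Supp := by
    rw [ae_iff]; exact D.μ_Supp_compl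
  have sup2 : ∀ᵐ x ∂D.μ, T₂ x ∈ D.Supp := by
    rw [ae_iff]
    have := D.μ_Supp_compl
    conv at this => lhs; rw [← p2]
    rw [Measure.map_apply h2 D.meas_Supp.compl] at this
    exact this
  have sup3 : ∀ᵐ x ∂D.μ, T₃ x ∈ D.Supp := by
    rw [ae_iff]
    have := D.μ_Supp_compl
    conv at this => lhs; rw [← p3]
    rw [Measure.map_apply h3 D.meas_Supp.compl] at this
    exact this
  -- the two integrals agree
  have i2 : ∫⁻ x, D.V (T₂ x) ∂D.μ = ∫⁻ x, D.V x ∂D.μ := by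
    conv_rhs => rw [← p2]
    rw [lintegral_map hV h2]
  have i3 : ∫⁻ x, D.V (T₃ x) ∂D.μ = ∫⁻ x, D.V x ∂D.μ := by
    conv_rhs => rw [← p3]
    rw [lintegral_map hV h3]
  have m2 : Measurable fun x => D.V (T₂ x) := hV.comp h2
  have m3 : Measurable fun x => D.V (T₃ x) := hV.comp h3
  have hsum : ∫⁻ x, D.V x + D.V (T₂ x) + D.V (T₃ x) ∂D.μ = 3 * ∫⁻ x, D.V x ∂D.μ := by
    rw [lintegral_add_right _ m3, lintegral_add_right _ m2, i2, i3]; ring
  have hmeasc : Measurable fun x => c x (T₂ x) (T₃ x) := by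
    have := D.hc.comp (show Measurable (fun x => (x, T₂ x, T₃ x)) by fun_prop)
    exact this
  have hright : ∫⁻ x, c x (T₂ x) (T₃ x) + D.K ∂D.μ = 3 * ∫⁻ x, D.V x ∂D.μ := by
    rw [lintegral_add_right _ measurable_const, lintegral_const, D.μ_univ, mul_one, hopt,
      D.lintegral_V]
  have hfinite : 3 * ∫⁻ x, D.V x ∂D.μ ≠ ⊤ := by
    rw [D.lintegral_V]
    exact (ENNReal.add_lt_top.mpr ⟨D.cost₀_lt_top, D.hK.lt_top⟩).ne
  have hae : (fun x => D.V x + D.V (T₂ x) + D.V (T₃ x)) =ᵐ[D.μ]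
      (fun x => c x (T₂ x) (T₃ x) + D.K) := by
    apply ae_eq_of_ae_le_of_lintegral_le
    · filter_upwards [sup1, sup2, sup3] with x h1 h2' h3'
      exact D.dual _ h1 _ h2' _ h3'
    · rw [hsum]; exact hfinite
    · exact (hmeasc.add measurable_const).aemeasurable
    · rw [hsum, hright]
  -- contact for a.e. point
  have hcontact : ∀ᵐ w ∂D.μ, ∃ x ∈ D.I, Perm3 w (T₂ w) (T₃ w) x (D.f₁ x) (D.f₂ x) ∨
      Perm3 w (T₂ w) (T₃ w) x (D.f₃ x) (D.f₄ x) := by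
    filter_upwards [hae, sup1, sup2, sup3] with w he h1 h2' h3'
    exact D.rigid _ h1 _ h2' _ h3' he
  -- the set of points of `I` on the first family
  set A : Set X := D.I ∩ T₂ ⁻¹' (D.f₁ '' D.I ∪ D.f₂ '' D.I) with hA
  have hAm : MeasurableSet A :=
    D.hI.inter (h2 ((D.mi₁ _ D.hI subset_rfl).union (D.mi₂ _ D.hI subset_rfl)))
  have hAI : A ⊆ D.I := inter_subset_left
  -- evaluation of `μ` on the pieces
  have hzero : ∀ f : X → X, Measurable f → ∀ s : Set X, MeasurableSet s →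
      (∀ x ∈ D.I, f x ∉ s) → D.ν.map f s = 0 := by
    intro f hf s hs h
    rw [Measure.map_apply hf hs]
    apply measure_mono_null _ D.hνI
    intro x hx hxI
    exact h x hxI hx
  have hpre : ∀ f : X → X, Measurable f → InjOn f D.I → ∀ S : Set X, MeasurableSet S →
      S ⊆ D.I → MeasurableSet (f '' S) → D.ν.map f (f '' S) = D.ν S := by
    intro f hf hinj S hS hSI hi
    rw [Measure.map_apply hf hi]
    apply measure_congr
    have hI : ∀ᵐ x ∂D.ν, x ∈ D.I := by rw [ae_iff]; exact D.hνI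
    filter_upwards [hI] with x hx
    apply propext
    constructor
    · rintro ⟨y, hy, hxy⟩
      have := hinj (hSI hy) hx hxy
      subst this
      exact hy
    · intro hxS
      exact ⟨x, hxS, rfl⟩
  have hν_img : ∀ f : X → X, (∀ x ∈ D.I, f x ∉ D.I) → ∀ S : Set X, S ⊆ D.I → D.ν (f '' S) = 0 := by
    intro f hf S hS
    apply measure_mono_null _ D.hνI
    rintro _ ⟨y, hy, rfl⟩
    exact hf y (hS hy)
  -- the counting identity
  have key : ∀ S : Set X, MeasurableSet S → S ⊆ D.I → D.ν S = 2 * D.ν (S ∩ A) := by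
    intro S hS hSI
    have hm1 : MeasurableSet (D.f₁ '' S) := D.mi₁ S hS hSI
    have hm2 : MeasurableSet (D.f₂ '' S) := D.mi₂ S hS hSI
    have hSA : MeasurableSet (S ∩ A) := hS.inter hAm
    -- the pointwise identity
    have hpoint : ∀ᵐ w ∂D.μ, (D.f₁ '' S).indicator 1 (T₂ w) + (D.f₁ '' S).indicator 1 (T₃ w)
        = (S ∩ A).indicator (1 : X → ℝ≥0∞) w + (D.f₂ '' S).indicator 1 w := by
      filter_upwards [hcontact] with w hw
      obtain ⟨x, hx, hp⟩ := hw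
      have a1 : D.f₁ x ∈ D.f₁ '' S ↔ x ∈ S := by
        constructor
        · rintro ⟨y, hy, hxy⟩
          rw [← D.inj₁ (hSI hy) hx hxy]; exact hy
        · intro h; exact ⟨x, h, rfl⟩
      have a2 : x ∉ D.f₁ '' S := by
        rintro ⟨y, hy, rfl⟩; exact D.d₁ y (hSI hy) hx
      have a3 : D.f₂ x ∉ D.f₁ '' S := by
        rintro ⟨y, hy, hxy⟩; exact D.d₁₂ y (hSI hy) x hx hxy
      have a4 : D.f₃ x ∉ D.f₁ '' S := by
        rintro ⟨y, hy, hxy⟩; exact D.d₁₃ y (hSI hy) x hx hxy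
      have a5 : D.f₄ x ∉ D.f₁ '' S := by
        rintro ⟨y, hy, hxy⟩; exact D.d₁₄ y (hSI hy) x hx hxy
      have b1 : D.f₂ x ∈ D.f₂ '' S ↔ x ∈ S := by
        constructor
        · rintro ⟨y, hy, hxy⟩
          rw [← D.inj₂ (hSI hy) hx hxy]; exact hy
        · intro h; exact ⟨x, h, rfl⟩
      have b2 : x ∉ D.f₂ '' S := by
        rintro ⟨y, hy, rfl⟩; exact D.d₂ y (hSI hy) hx
      have b3 : D.f₁ x ∉ D.f₂ '' S := by
        rintro ⟨y, hy, hxy⟩; exact D.d₁₂ x hx y (hSI hy) hxy.symm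
      have b4 : D.f₃ x ∉ D.f₂ '' S := by
        rintro ⟨y, hy, hxy⟩; exact D.d₂₃ y (hSI hy) x hx hxy
      have b5 : D.f₄ x ∉ D.f₂ '' S := by
        rintro ⟨y, hy, hxy⟩; exact D.d₂₄ y (hSI hy) x hx hxy
      have s1 : D.f₁ x ∉ S ∩ A := fun h => D.d₁ x hx (hAI h.2)
      have s2 : D.f₂ x ∉ S ∩ A := fun h => D.d₂ x hx (hAI h.2)
      have s3 : D.f₃ x ∉ S ∩ A := fun h => D.d₃ x hx (hAI h.2)
      have s4 : D.f₄ x ∉ S ∩ A := fun h => D.d₄ x hx (hAI h.2)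
      have s5 : T₂ x ∈ D.f₁ '' D.I ∪ D.f₂ '' D.I → (x ∈ S ∩ A ↔ x ∈ S) := by
        intro ht
        constructor
        · exact fun h => h.1
        · exact fun h => ⟨h, hx, ht⟩
      have s6 : T₂ x ∉ D.f₁ '' D.I ∪ D.f₂ '' D.I → x ∉ S ∩ A := by
        intro ht h
        exact ht h.2.2
      have m1 : D.f₁ x ∈ D.f₁ '' D.I ∪ D.f₂ '' D.I := Or.inl ⟨x, hx, rfl⟩
      have m2 : D.f₂ x ∈ D.f₁ '' D.I ∪ D.f₂ '' D.I := Or.inr ⟨x, hx, rfl⟩
      have m3 : D.f₃ x ∉ D.f₁ '' D.I ∪ D.f₂ '' D.I := by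
        rintro (⟨y, hy, hxy⟩ | ⟨y, hy, hxy⟩)
        · exact D.d₁₃ y hy x hx hxy
        · exact D.d₂₃ y hy x hx hxy
      have m4 : D.f₄ x ∉ D.f₁ '' D.I ∪ D.f₂ '' D.I := by
        rintro (⟨y, hy, hxy⟩ | ⟨y, hy, hxy⟩)
        · exact D.d₁₄ y hy x hx hxy
        · exact D.d₂₄ y hy x hx hxy
      rcases hp with (h | h | h | h | h | h) | (h | h | h | h | h | h)
      · obtain ⟨e1, e2, e3⟩ := h
        subst e1
        have := s5 (by rw [e2]; exact m1)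
        rw [e2, e3]
        by_cases hS' : w ∈ S
        · simp [indicator, hS', a1, a3, b2, this]
        · simp [indicator, hS', a1, a3, b2, this]
      · obtain ⟨e1, e2, e3⟩ := h
        subst e1
        have := s5 (by rw [e2]; exact m2)
        rw [e2, e3]
        by_cases hS' : w ∈ S
        · simp [indicator, hS', a1, a3, b2, this]
        · simp [indicator, hS', a1, a3, b2, this]
      · obtain ⟨e1, e2, e3⟩ := h
        rw [e2, e3, e1]
        simp [indicator, a2, a3, s1, b3]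
      · obtain ⟨e1, e2, e3⟩ := h
        rw [e2, e3, e1]
        simp [indicator, a2, a3, s1, b3]
      · obtain ⟨e1, e2, e3⟩ := h
        rw [e2, e3, e1]
        by_cases hS' : x ∈ S
        · simp [indicator, hS', a1, a2, s2, b1]
        · simp [indicator, hS', a1, a2, s2, b1]
      · obtain ⟨e1, e2, e3⟩ := h
        rw [e2, e3, e1]
        by_cases hS' : x ∈ S
        · simp [indicator, hS', a1, a2, s2, b1]
        · simp [indicator, hS', a1, a2, s2, b1]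
      · obtain ⟨e1, e2, e3⟩ := h
        subst e1
        have := s6 (by rw [e2]; exact m3)
        rw [e2, e3]
        simp [indicator, a4, a5, b2, this]
      · obtain ⟨e1, e2, e3⟩ := h
        subst e1
        have := s6 (by rw [e2]; exact m4)
        rw [e2, e3]
        simp [indicator, a4, a5, b2, this]
      · obtain ⟨e1, e2, e3⟩ := h
        rw [e2, e3, e1]
        simp [indicator, a2, a5, s3, b4]
      · obtain ⟨e1, e2, e3⟩ := h
        rw [e2, e3, e1]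
        simp [indicator, a2, a5, s3, b4]
      · obtain ⟨e1, e2, e3⟩ := h
        rw [e2, e3, e1]
        simp [indicator, a2, a4, s4, b5]
      · obtain ⟨e1, e2, e3⟩ := h
        rw [e2, e3, e1]
        simp [indicator, a2, a4, s4, b5]
    have mi1 : Measurable ((D.f₁ '' S).indicator (1 : X → ℝ≥0∞)) :=
      measurable_one.indicator hm1
    have hInt : ∫⁻ w, (D.f₁ '' S).indicator 1 (T₂ w) + (D.f₁ '' S).indicator 1 (T₃ w) ∂D.μ
        = ∫⁻ w, (S ∩ A).indicator (1 : X → ℝ≥0∞) w + (D.f₂ '' S).indicator 1 w ∂D.μ :=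
      lintegral_congr_ae hpoint
    have hL : ∫⁻ w, (D.f₁ '' S).indicator 1 (T₂ w) + (D.f₁ '' S).indicator 1 (T₃ w) ∂D.μ
        = D.μ (D.f₁ '' S) + D.μ (D.f₁ '' S) := by
      have n1 : ∫⁻ w, (D.f₁ '' S).indicator 1 (T₂ w) ∂D.μ = D.μ (D.f₁ '' S) := by
        have := lintegral_map (μ := D.μ) mi1 h2
        rw [p2, lintegral_indicator_one hm1] at this
        exact this.symm
      have n2 : ∫⁻ w, (D.f₁ '' S).indicator 1 (T₃ w) ∂D.μ = D.μ (D.f₁ '' S) := by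
        have := lintegral_map (μ := D.μ) mi1 h3
        rw [p3, lintegral_indicator_one hm1] at this
        exact this.symm
      have m3' : Measurable fun w => (D.f₁ '' S).indicator (1 : X → ℝ≥0∞) (T₃ w) := mi1.comp h3
      rw [lintegral_add_right _ m3', n1, n2]
    have hR : ∫⁻ w, (S ∩ A).indicator (1 : X → ℝ≥0∞) w + (D.f₂ '' S).indicator 1 w ∂D.μ
        = D.μ (S ∩ A) + D.μ (D.f₂ '' S) := by
      rw [lintegral_add_right _ (measurable_one.indicator hm2), lintegral_indicator_one hSA,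
        lintegral_indicator_one hm2]
    have v1 : D.μ (D.f₁ '' S) = D.ν S := by
      simp only [μ, Measure.add_apply]
      rw [hν_img _ D.d₁ S hSI, hpre _ D.m₁ D.inj₁ S hS hSI hm1,
        hzero _ D.m₂ _ hm1 (fun x hx => by
          rintro ⟨y, hy, hxy⟩; exact D.d₁₂ y (hSI hy) x hx hxy),
        hzero _ D.m₃ _ hm1 (fun x hx => by
          rintro ⟨y, hy, hxy⟩; exact D.d₁₃ y (hSI hy) x hx hxy),
        hzero _ D.m₄ _ hm1 (fun x hx => by
          rintro ⟨y, hy, hxy⟩; exact D.d₁₄ y (hSI hy) x hx hxy)]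
      simp
    have v2 : D.μ (D.f₂ '' S) = D.ν S := by
      simp only [μ, Measure.add_apply]
      rw [hν_img _ D.d₂ S hSI, hpre _ D.m₂ D.inj₂ S hS hSI hm2,
        hzero _ D.m₁ _ hm2 (fun x hx => by
          rintro ⟨y, hy, hxy⟩; exact D.d₁₂ x hx y (hSI hy) hxy.symm),
        hzero _ D.m₃ _ hm2 (fun x hx => by
          rintro ⟨y, hy, hxy⟩; exact D.d₂₃ y (hSI hy) x hx hxy),
        hzero _ D.m₄ _ hm2 (fun x hx => by
          rintro ⟨y, hy, hxy⟩; exact D.d₂₄ y (hSI hy) x hx hxy)]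
      simp
    have v3 : D.μ (S ∩ A) = D.ν (S ∩ A) + D.ν (S ∩ A) := by
      have hsub : S ∩ A ⊆ D.I := fun _ h => hSI h.1
      simp only [μ, Measure.add_apply]
      rw [hzero _ D.m₁ _ hSA (fun x hx h => D.d₁ x hx (hsub h)),
        hzero _ D.m₂ _ hSA (fun x hx h => D.d₂ x hx (hsub h)),
        hzero _ D.m₃ _ hSA (fun x hx h => D.d₃ x hx (hsub h)),
        hzero _ D.m₄ _ hSA (fun x hx h => D.d₄ x hx (hsub h))]
      simp
    rw [hL, hR, v1, v2, v3] at hInt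
    have hfin : D.ν S ≠ ⊤ := by
      apply ne_top_of_le_ne_top _ (measure_mono (subset_univ S))
      rw [D.hν]; norm_num
    have : D.ν S = D.ν (S ∩ A) + D.ν (S ∩ A) := (ENNReal.add_left_inj hfin).mp hInt
    rw [this, two_mul]
  have hA1 := key D.I D.hI subset_rfl
  have hA2 := key A hAm hAI
  rw [inter_eq_right.mpr hAI] at hA1
  rw [inter_self] at hA2
  have hAfin : D.ν A ≠ ⊤ := by
    apply ne_top_of_le_ne_top _ (measure_mono (subset_univ A))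
    rw [D.hν]; norm_num
  have hA0 : D.ν A = 0 := by
    by_contra hne
    have : (1 : ℝ≥0∞) * D.ν A = 2 * D.ν A := by rw [one_mul]; exact hA2
    have h12 := (ENNReal.mul_left_inj hne hAfin).mp this
    norm_num at h12
  rw [hA0, mul_zero] at hA1
  have hIu : D.ν univ ≤ D.ν D.I + D.ν D.Iᶜ := by
    rw [← union_compl_self D.I]
    exact measure_union_le _ _
  rw [hA1, D.hνI, D.hν] at hIu
  norm_num at hIu

end SplitData

end Vale.Agent.Lib.P121
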