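import Vale.Agent.Lib.P121.Geometry

/-!
Assembling the data of the abstract argument.
-/

namespace Vale.Agent.Lib.P121

open scoped RealInnerProductSpace ENNReal NNReal
open Metric Set MeasureTheory

set_option linter.unusedSectionVars false
set_option linter.unusedVariables false

variable {E : Type*} [NormedAddCommGroup E] [InnerProductSpace ℝ E]

theorem coulomb_eq_top_left (a d : E) : coulomb a a d = ⊤ := by
  simp [coulomb]

theorem coulomb_eq_top_mid (a b : E) : coulomb a b a = ⊤ := by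
  simp [coulomb]

theorem coulomb_eq_top_right (a b : E) : coulomb a b b = ⊤ := by
  simp [coulomb]

theorem edist_inv_eq {a b : E} (hab : a ≠ b) : (edist a b)⁻¹ = ENNReal.ofReal (‖a - b‖⁻¹) := by
  have h0 : 0 < ‖a - b‖ := norm_pos_iff.mpr (sub_ne_zero.mpr hab)
  rw [edist_dist, dist_eq_norm, ENNReal.ofReal_inv_of_pos h0]

theorem coulomb_eq {a b d : E} (hab : a ≠ b) (had : a ≠ d) (hbd : b ≠ d) :
    coulomb a b d = ENNReal.ofReal (cR a b d) := by
  rw [coulomb, edist_inv_eq hab, edist_inv_eq had, edist_inv_eq hbd, cR,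
    ENNReal.ofReal_add (by positivity) (by positivity), ENNReal.ofReal_add (by positivity)
      (by positivity)]

theorem coulomb_symm₁ (a b d : E) : coulomb a b d = coulomb b a d := by
  simp only [coulomb]
  rw [edist_comm a b]
  ring

theorem coulomb_symm₂ (a b d : E) : coulomb a b d = coulomb a d b := by
  simp only [coulomb]
  rw [edist_comm b d]
  ring

theorem cR_nonneg (a b d : E) : 0 ≤ cR a b d := by
  simp only [cR]; positivity

namespace Fam

variable (F : Fam E)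

/-- The dual function. -/
noncomputable def V (a : E) : ℝ≥0∞ := ENNReal.ofReal (F.U a + 1)

theorem V_sum {a b d : E} (ha : a ∈ F.Supp) (hb : b ∈ F.Supp) (hd : d ∈ F.Supp) :
    F.V a + F.V b + F.V d = ENNReal.ofReal (F.U a + F.U b + F.U d + 3) := by
  have ua := (F.U_bd ha).1
  have ub := (F.U_bd hb).1
  have ud := (F.U_bd hd).1
  simp only [V]
  rw [← ENNReal.ofReal_add (by linarith) (by linarith),
    ← ENNReal.ofReal_add (by linarith) (by linarith)]
  congr 1
  ring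

theorem coulomb_add (a b d : E) (hab : a ≠ b) (had : a ≠ d) (hbd : b ≠ d) :
    coulomb a b d + 3 = ENNReal.ofReal (cR a b d + 3) := by
  rw [coulomb_eq hab had hbd, ENNReal.ofReal_add (cR_nonneg _ _ _) (by norm_num)]
  simp

theorem V_ne_top (a : E) : F.V a ≠ ⊤ := ENNReal.ofReal_ne_top

theorem dual {a b d : E} (ha : a ∈ F.Supp) (hb : b ∈ F.Supp) (hd : d ∈ F.Supp) :
    F.V a + F.V b + F.V d ≤ coulomb a b d + 3 := by
  by_cases hab : a = b
  · subst hab; rw [coulomb_eq_top_left]; simp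
  by_cases had : a = d
  · subst had; rw [coulomb_eq_top_mid]; simp
  by_cases hbd : b = d
  · subst hbd; rw [coulomb_eq_top_right]; simp
  rw [F.V_sum ha hb hd, coulomb_add _ _ _ hab had hbd]
  apply ENNReal.ofReal_le_ofReal
  have := (F.Q_all ha hb hd hab had hbd).1
  linarith

theorem rigid {a b d : E} (ha : a ∈ F.Supp) (hb : b ∈ F.Supp) (hd : d ∈ F.Supp)
    (heq : F.V a + F.V b + F.V d = coulomb a b d + 3) :
    ∃ x ∈ F.I, Perm3 a b d x (F.B x) (F.C x) ∨ Perm3 a b d x (F.f₃ x) (F.f₄ x) := by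
  have hne : F.V a + F.V b + F.V d ≠ ⊤ := by
    simp [ENNReal.add_eq_top, F.V_ne_top]
  have hab : a ≠ b := by
    rintro rfl
    rw [coulomb_eq_top_left] at heq
    simp at heq
    exact hne (by simp [heq])
  have had : a ≠ d := by
    rintro rfl
    rw [coulomb_eq_top_mid] at heq
    simp at heq
    exact hne (by simp [heq])
  have hbd : b ≠ d := by
    rintro rfl
    rw [coulomb_eq_top_right] at heq
    simp at heq
    exact hne (by simp [heq])
  rw [F.V_sum ha hb hd, coulomb_add _ _ _ hab had hbd] at heq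
  have ua := (F.U_bd ha).1
  have ub := (F.U_bd hb).1
  have ud := (F.U_bd hd).1
  have h0 : 0 ≤ F.U a + F.U b + F.U d + 3 := by linarith
  have h1 : 0 ≤ cR a b d + 3 := by linarith [cR_nonneg a b d]
  have h2 := (ENNReal.ofReal_eq_ofReal_iff h0 h1).mp heq
  exact (F.Q_all ha hb hd hab had hbd).2 (by linarith)

theorem mem_Supp_I {x : E} (hx : x ∈ F.I) : x ∈ F.Supp := Or.inl (Or.inl (Or.inl (Or.inl hx)))
theorem mem_Supp_B {x : E} (hx : x ∈ F.I) : F.B x ∈ F.Supp :=
  Or.inl (Or.inl (Or.inl (Or.inr (mem_image_of_mem _ hx))))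
theorem mem_Supp_C {x : E} (hx : x ∈ F.I) : F.C x ∈ F.Supp :=
  Or.inl (Or.inl (Or.inr (mem_image_of_mem _ hx)))
theorem mem_Supp_f₃ {x : E} (hx : x ∈ F.I) : F.f₃ x ∈ F.Supp :=
  Or.inl (Or.inr (mem_image_of_mem _ hx))
theorem mem_Supp_f₄ {x : E} (hx : x ∈ F.I) : F.f₄ x ∈ F.Supp :=
  Or.inr (mem_image_of_mem _ hx)

theorem eq₁ {x : E} (hx : x ∈ F.I) :
    F.V x + F.V (F.B x) + F.V (F.C x) = coulomb x (F.B x) (F.C x) + 3 := by
  obtain ⟨h1, h2, h3⟩ := F.dist₁ hx
  rw [F.V_sum (F.mem_Supp_I hx) (F.mem_Supp_B hx) (F.mem_Supp_C hx), coulomb_add _ _ _ h1 h2 h3,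
    F.eq₁_real hx]

theorem eq₂ {x : E} (hx : x ∈ F.I) :
    F.V x + F.V (F.f₃ x) + F.V (F.f₄ x) = coulomb x (F.f₃ x) (F.f₄ x) + 3 := by
  obtain ⟨h1, h2, h3⟩ := F.dist₂ hx
  rw [F.V_sum (F.mem_Supp_I hx) (F.mem_Supp_f₃ hx) (F.mem_Supp_f₄ hx),
    coulomb_add _ _ _ h1 h2 h3, F.eq₂_real hx]

theorem bd₁ {x : E} (hx : x ∈ F.I) : coulomb x (F.B x) (F.C x) ≤ ENNReal.ofReal 3 := by
  obtain ⟨h1, h2, h3⟩ := F.dist₁ hx
  rw [coulomb_eq h1 h2 h3, ← F.eq₁_real hx]
  apply ENNReal.ofReal_le_ofReal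
  have a := (F.U_I_bd hx).2
  have b := (F.U_P₁_bd (mem_image_of_mem _ hx)).2
  have c := (F.U_P₂_bd (mem_image_of_mem _ hx)).2
  linarith

theorem bd₂ {x : E} (hx : x ∈ F.I) : coulomb x (F.f₃ x) (F.f₄ x) ≤ ENNReal.ofReal 3 := by
  obtain ⟨h1, h2, h3⟩ := F.dist₂ hx
  rw [coulomb_eq h1 h2 h3, ← F.eq₂_real hx]
  apply ENNReal.ofReal_le_ofReal
  have a := (F.U_I_bd hx).2
  have b := (F.U_P₃_bd (mem_image_of_mem _ hx)).2
  have c := (F.U_P₄_bd (mem_image_of_mem _ hx)).2
  linarith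

theorem disj₁₂ {x y : E} (hx : x ∈ F.I) (hy : y ∈ F.I) : F.B x ≠ F.C y := fun h =>
  F.P₁_P₂ (mem_image_of_mem _ hy) (h ▸ mem_image_of_mem _ hx)
theorem disj₁₃ {x y : E} (hx : x ∈ F.I) (hy : y ∈ F.I) : F.B x ≠ F.f₃ y := fun h =>
  F.P₁_P₃ (mem_image_of_mem _ hy) (h ▸ mem_image_of_mem _ hx)
theorem disj₁₄ {x y : E} (hx : x ∈ F.I) (hy : y ∈ F.I) : F.B x ≠ F.f₄ y := fun h =>
  F.P₁_P₄ (mem_image_of_mem _ hy) (h ▸ mem_image_of_mem _ hx)
theorem disj₂₃ {x y : E} (hx : x ∈ F.I) (hy : y ∈ F.I) : F.C x ≠ F.f₃ y := fun h =>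
  F.P₂_P₃ (mem_image_of_mem _ hy) (h ▸ mem_image_of_mem _ hx)
theorem disj₂₄ {x y : E} (hx : x ∈ F.I) (hy : y ∈ F.I) : F.C x ≠ F.f₄ y := fun h =>
  F.P₂_P₄ (mem_image_of_mem _ hy) (h ▸ mem_image_of_mem _ hx)
theorem disj₃₄ {x y : E} (hx : x ∈ F.I) (hy : y ∈ F.I) : F.f₃ x ≠ F.f₄ y := fun h =>
  F.P₃_P₄ (mem_image_of_mem _ hy) (h ▸ mem_image_of_mem _ hx)

theorem inj_B : InjOn F.B F.I := fun x hx y hy h => by
  have := congrArg F.X₁ h
  rwa [F.lB x hx, F.lB y hy] at this

theorem inj_C : InjOn F.C F.I := fun x hx y hy h => by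
  have := congrArg F.X₂ h
  rwa [F.lC x hx, F.lC y hy] at this

theorem R_inj {x y : E} (h : F.R x = F.R y) : x = y := F.R.injective h

theorem inj_f₃ : InjOn F.f₃ F.I := fun x hx y hy h => by
  exact F.R_inj (F.inj_B (F.R_mem_I hx) (F.R_mem_I hy) (F.R_inj h))

theorem inj_f₄ : InjOn F.f₄ F.I := fun x hx y hy h => by
  exact F.R_inj (F.inj_C (F.R_mem_I hx) (F.R_mem_I hy) (F.R_inj h))

theorem mapsTo_R : MapsTo F.R F.I F.I := fun _ hx => F.R_mem_I hx

theorem cont_f₃ : ContinuousOn F.f₃ F.I :=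
  F.R.continuous.comp_continuousOn (F.cB.comp F.R.continuous.continuousOn F.mapsTo_R)

theorem cont_f₄ : ContinuousOn F.f₄ F.I :=
  F.R.continuous.comp_continuousOn (F.cC.comp F.R.continuous.continuousOn F.mapsTo_R)

end Fam

section Meas

variable [FiniteDimensional ℝ E] [MeasurableSpace E] [BorelSpace E]

theorem meas_coulomb : Measurable (fun p : E × E × E => coulomb p.1 p.2.1 p.2.2) := by
  unfold coulomb
  have m1 : Measurable (fun p : E × E × E => p.1) := measurable_fst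
  have m2 : Measurable (fun p : E × E × E => p.2.1) := measurable_fst.comp measurable_snd
  have m3 : Measurable (fun p : E × E × E => p.2.2) := measurable_snd.comp measurable_snd
  exact ((m1.edist m2).inv.add (m1.edist m3).inv).add (m2.edist m3).inv

namespace Fam

variable (F : Fam E)

theorem meas_I : MeasurableSet F.I := measurableSet_ball

theorem cont_h : ContinuousOn F.h F.I := by
  unfold h cR
  have hid : ContinuousOn (fun x : E => x) F.I := continuousOn_id
  have c1 : ContinuousOn (fun x : E => ‖x - F.B x‖⁻¹) F.I :=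
    ((hid.sub F.cB).norm).inv₀ (fun x hx =>
      norm_ne_zero_iff.mpr (sub_ne_zero.mpr (F.dist₁ hx).1))
  have c2 : ContinuousOn (fun x : E => ‖x - F.C x‖⁻¹) F.I :=
    ((hid.sub F.cC).norm).inv₀ (fun x hx =>
      norm_ne_zero_iff.mpr (sub_ne_zero.mpr (F.dist₁ hx).2.1))
  have c3 : ContinuousOn (fun x : E => ‖F.B x - F.C x‖⁻¹) F.I :=
    ((F.cB.sub F.cC).norm).inv₀ (fun x hx =>
      norm_ne_zero_iff.mpr (sub_ne_zero.mpr (F.dist₁ hx).2.2))
  have c4 : Continuous (fun x : E => uI x) := by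
    unfold uI; fun_prop
  have c5 : Continuous (fun z : E => u2 F.e z) := by
    unfold u2; fun_prop
  exact ((c1.add c2).add c3).sub c4.continuousOn |>.sub (c5.comp_continuousOn F.cC)

theorem meas_P₁ : MeasurableSet F.P₁ :=
  F.meas_I.image_of_continuousOn_injOn F.cB F.inj_B
theorem meas_P₂ : MeasurableSet F.P₂ :=
  F.meas_I.image_of_continuousOn_injOn F.cC F.inj_C
theorem meas_P₃ : MeasurableSet F.P₃ :=
  F.meas_I.image_of_continuousOn_injOn F.cont_f₃ F.inj_f₃
theorem meas_P₄ : MeasurableSet F.P₄ :=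
  F.meas_I.image_of_continuousOn_injOn F.cont_f₄ F.inj_f₄

theorem meas_u1 {K : ℝ≥0} (hL : LipschitzOnWith K F.X₁ F.P₁) : Measurable F.u1 := by
  classical
  have hcX : ContinuousOn F.X₁ F.P₁ := hL.continuousOn
  have hm : MapsTo F.X₁ F.P₁ F.I := by
    rintro _ ⟨x, hx, rfl⟩
    rw [F.lB x hx]; exact hx
  have hc : ContinuousOn (fun y => F.h (F.X₁ y)) F.P₁ := F.cont_h.comp hcX hm
  have : Measurable (F.P₁.piecewise (fun y => F.h (F.X₁ y)) (fun _ => 0)) :=
    hc.measurable_piecewise continuousOn_const F.meas_P₁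
  convert this using 1
  funext y
  simp [u1, Set.piecewise]

theorem meas_U {K : ℝ≥0} (hL : LipschitzOnWith K F.X₁ F.P₁) : Measurable F.U := by
  classical
  unfold U
  have c4 : Continuous (fun x : E => uI x) := by
    unfold uI; fun_prop
  have c5 : Continuous (fun z : E => u2 F.e z) := by
    unfold u2; fun_prop
  have mR : Measurable F.R := F.R.continuous.measurable
  have m1 := F.meas_u1 hL
  refine Measurable.ite F.meas_I c4.measurable (Measurable.ite F.meas_P₁ m1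
    (Measurable.ite F.meas_P₂ c5.measurable (Measurable.ite F.meas_P₃ (m1.comp mR)
      (Measurable.ite F.meas_P₄ (c5.measurable.comp mR) measurable_const))))

variable (m : Measure E) [m.IsAddHaarMeasure]

/-- The measure on the inner piece. -/
noncomputable def ν : Measure E := ((1 / 6 : ℝ≥0∞) * (m F.I)⁻¹) • m.restrict F.I

theorem I_pos : m F.I ≠ 0 := (isOpen_ball.measure_pos m ⟨0, mem_ball_self F.hr⟩).ne'
theorem I_top : m F.I ≠ ⊤ := (measure_ball_lt_top).ne

theorem ν_univ : F.ν m univ = 1 / 6 := by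
  simp only [ν, Measure.smul_apply, Measure.restrict_apply MeasurableSet.univ, univ_inter, smul_eq_mul]
  rw [mul_assoc, ENNReal.inv_mul_cancel (F.I_pos m) (F.I_top m), mul_one]

theorem ν_compl : F.ν m F.Iᶜ = 0 := by
  simp [ν, Measure.restrict_apply F.meas_I.compl]

theorem ν_ac : F.ν m ≪ m := by
  have : m.restrict F.I ≪ m := Measure.restrict_le_self.absolutelyContinuous
  exact (Measure.AbsolutelyContinuous.smul_left this _)

/-- Lipschitz images of null sets are null. -/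
theorem image_null {X : E → E} {K : ℝ≥0} {S N : Set E} (hL : LipschitzOnWith K X S) (hN : m N = 0)
    (hNS : N ⊆ S) : m (X '' N) = 0 := by
  have hH : (Measure.hausdorffMeasure (Module.finrank ℝ E : ℝ) : Measure E) N = 0 :=
    (Measure.absolutelyContinuous_isAddHaarMeasure _ m) hN
  have h1 := (hL.mono hNS).hausdorffMeasure_image_le (d := (Module.finrank ℝ E : ℝ))
    (Nat.cast_nonneg _)
  rw [hH, mul_zero] at h1
  have h2 : (Measure.hausdorffMeasure (Module.finrank ℝ E : ℝ) : Measure E) (X '' N) = 0 :=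
    le_antisymm h1 zero_le
  exact (Measure.absolutelyContinuous_isAddHaarMeasure m _) h2

/-- Abstract absolute-continuity statement for the pieces. -/
theorem map_ac {f X : E → E} {K : ℝ≥0} {S : Set E} (hf : Measurable f)
    (hL : LipschitzOnWith K X S) (hS : ∀ x ∈ F.I, f x ∈ S) (hX : ∀ x ∈ F.I, X (f x) = x) :
    (F.ν m).map f ≪ m := by
  refine Measure.AbsolutelyContinuous.mk (fun N hN hN0 => ?_)
  rw [Measure.map_apply hf hN]
  -- the preimage is contained in the union of a null set and the complement of `I`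
  have h1 : m (X '' (N ∩ S)) = 0 := image_null m hL (measure_mono_null inter_subset_left hN0)
    inter_subset_right
  have h2 : F.ν m (X '' (N ∩ S)) = 0 := F.ν_ac m h1
  refine measure_mono_null ?_ (measure_union_null h2 (F.ν_compl m))
  intro x hx
  by_cases hxI : x ∈ F.I
  · exact Or.inl ⟨f x, ⟨hx, hS x hxI⟩, hX x hxI⟩
  · exact Or.inr hxI

/-- The data for the abstract argument. -/
noncomputable def split (mB : Measurable F.B) (mC : Measurable F.C) {K : ℝ≥0}
    (hL : LipschitzOnWith K F.X₁ F.P₁) : SplitData (coulomb (X := E)) where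
  ν := F.ν m
  I := F.I
  f₁ := F.B
  f₂ := F.C
  f₃ := F.f₃
  f₄ := F.f₄
  V := F.V
  K := 3
  B := ENNReal.ofReal 3
  hc := meas_coulomb
  symm₁ := coulomb_symm₁
  symm₂ := coulomb_symm₂
  hI := F.meas_I
  hνI := F.ν_compl m
  hν := F.ν_univ m
  m₁ := mB
  m₂ := mC
  m₃ := F.R.continuous.measurable.comp (mB.comp F.R.continuous.measurable)
  m₄ := F.R.continuous.measurable.comp (mC.comp F.R.continuous.measurable)
  inj₁ := F.inj_B
  inj₂ := F.inj_C
  inj₃ := F.inj_f₃
  inj₄ := F.inj_f₄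
  mi₁ := fun S hS hSI => hS.image_of_continuousOn_injOn (F.cB.mono hSI) (F.inj_B.mono hSI)
  mi₂ := fun S hS hSI => hS.image_of_continuousOn_injOn (F.cC.mono hSI) (F.inj_C.mono hSI)
  mi₃ := fun S hS hSI => hS.image_of_continuousOn_injOn (F.cont_f₃.mono hSI) (F.inj_f₃.mono hSI)
  mi₄ := fun S hS hSI => hS.image_of_continuousOn_injOn (F.cont_f₄.mono hSI) (F.inj_f₄.mono hSI)
  d₁ := fun x hx => F.I_not_P₁ (mem_image_of_mem _ hx)
  d₂ := fun x hx => F.I_P₂ (mem_image_of_mem _ hx)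
  d₃ := fun x hx => F.I_P₃ (mem_image_of_mem _ hx)
  d₄ := fun x hx => F.I_P₄ (mem_image_of_mem _ hx)
  d₁₂ := fun x hx y hy => F.disj₁₂ hx hy
  d₁₃ := fun x hx y hy => F.disj₁₃ hx hy
  d₁₄ := fun x hx y hy => F.disj₁₄ hx hy
  d₂₃ := fun x hx y hy => F.disj₂₃ hx hy
  d₂₄ := fun x hx y hy => F.disj₂₄ hx hy
  d₃₄ := fun x hx y hy => F.disj₃₄ hx hy
  hV := ENNReal.measurable_ofReal.comp ((F.meas_U hL).add measurable_const)
  hK := by simp
  hB := by simp
  dual := fun a ha b hb d hd => F.dual ha hb hd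
  eq₁ := fun x hx => F.eq₁ hx
  eq₂ := fun x hx => F.eq₂ hx
  bd₁ := fun x hx => F.bd₁ hx
  bd₂ := fun x hx => F.bd₂ hx
  rigid := fun a ha b hb d hd h => F.rigid ha hb hd h

theorem split_ac (mB : Measurable F.B) (mC : Measurable F.C) {K K' : ℝ≥0}
    (hL : LipschitzOnWith K F.X₁ F.P₁) (hL' : LipschitzOnWith K' F.X₂ F.P₂) :
    (F.split m mB mC hL).μ ≪ m := by
  have h0 := F.ν_ac m
  have h1 : (F.ν m).map F.B ≪ m := F.map_ac m mB hL (fun x hx => mem_image_of_mem _ hx) F.lB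
  have h2 : (F.ν m).map F.C ≪ m := F.map_ac m mC hL' (fun x hx => mem_image_of_mem _ hx) F.lC
  -- the conjugated inverse maps
  have lip3 : LipschitzOnWith K (fun y => F.R (F.X₁ (F.R y))) F.P₃ := by
    intro a ha b hb
    have := hL (F.R_P₃ ha) (F.R_P₃ hb)
    simpa [F.R.isometry.edist_eq] using this
  have lip4 : LipschitzOnWith K' (fun y => F.R (F.X₂ (F.R y))) F.P₄ := by
    intro a ha b hb
    have := hL' (F.R_P₄ ha) (F.R_P₄ hb)
    simpa [F.R.isometry.edist_eq] using this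
  have h3 : (F.ν m).map F.f₃ ≪ m := F.map_ac m
    (F.R.continuous.measurable.comp (mB.comp F.R.continuous.measurable)) lip3
    (fun x hx => mem_image_of_mem _ hx) (fun x hx => by
      simp only [f₃, F.hR]
      rw [F.lB _ (F.R_mem_I hx), F.hR])
  have h4 : (F.ν m).map F.f₄ ≪ m := F.map_ac m
    (F.R.continuous.measurable.comp (mC.comp F.R.continuous.measurable)) lip4
    (fun x hx => mem_image_of_mem _ hx) (fun x hx => by
      simp only [f₄, F.hR]
      rw [F.lC _ (F.R_mem_I hx), F.hR])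
  change F.ν m + F.ν m + (F.ν m).map F.B + (F.ν m).map F.C + (F.ν m).map F.f₃ + (F.ν m).map F.f₄ ≪ m
  exact (((((h0.add_left h0).add_left h1).add_left h2).add_left h3).add_left h4)

end Fam

end Meas

end Vale.Agent.Lib.P121
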