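import Mathlib

/-!
The definitions used in the statement: couplings of three copies of a measure, the Kantorovich
value of a three-point cost, and the Coulomb cost.
-/

namespace Vale.Agent.Lib.P121

open MeasureTheory
open scoped ENNReal

/-- `π` is a measure on the triple product whose three coordinate marginals all equal `μ`. -/
def IsCoupling3 {X : Type*} [MeasurableSpace X] (μ : Measure X) (π : Measure (X × X × X)) : Prop :=
  π.map Prod.fst = μ ∧ π.map (fun p => p.2.1) = μ ∧ π.map (fun p => p.2.2) = μ

/-- The Kantorovich value: the infimum of the cost over all couplings of three copies of `μ`. -/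
noncomputable def value3 {X : Type*} [MeasurableSpace X] (c : X → X → X → ℝ≥0∞) (μ : Measure X) :
    ℝ≥0∞ :=
  ⨅ (π : Measure (X × X × X)) (_ : IsCoupling3 μ π), ∫⁻ p, c p.1 p.2.1 p.2.2 ∂π

/-- The Coulomb cost, with the value `⊤` when two of the points coincide. -/
noncomputable def coulomb {X : Type*} [PseudoEMetricSpace X] (x y z : X) : ℝ≥0∞ :=
  (edist x y)⁻¹ + (edist x z)⁻¹ + (edist y z)⁻¹

end Vale.Agent.Lib.P121
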