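import Vale.Agent.Lib.P121.Assemble

/-!
The concrete family in three-dimensional Euclidean space.
-/

namespace Vale.Agent.Lib.P121

open scoped RealInnerProductSpace ENNReal NNReal
open Metric Set MeasureTheory

/-- The ambient space. -/
abbrev E3 : Type := EuclideanSpace ℝ (Fin 3)

/-- The swap of the first two coordinates. -/
noncomputable def swapR : E3 ≃ₗᵢ[ℝ] E3 :=
  LinearIsometryEquiv.piLpCongrLeft 2 ℝ ℝ (Equiv.swap (0 : Fin 3) 1)

/-- The first basis vector. -/
noncomputable def e3 : E3 := EuclideanSpace.single 0 1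

theorem swapR_apply (x : E3) (i : Fin 3) : swapR x i = x (Equiv.swap (0 : Fin 3) 1 i) := by
  simp [swapR]

theorem swapR_swapR (x : E3) : swapR (swapR x) = x := by
  ext i
  simp [swapR_apply]

theorem e3_norm : ‖e3‖ = 1 := by
  simp [e3]

theorem e3_perp : ⟪e3, swapR e3⟫ = (0 : ℝ) := by
  simp [e3, EuclideanSpace.inner_single_left, swapR_apply]

/-- The main existence statement. -/
theorem exists_fam : ∃ F : Fam E3, Measurable F.B ∧ Measurable F.C ∧
    (∃ K : ℝ≥0, LipschitzOnWith K F.X₁ F.P₁) ∧ (∃ K : ℝ≥0, LipschitzOnWith K F.X₂ F.P₂) := by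
  classical
  obtain ⟨r, hr, hrδ, B, C, X₁, X₂, cB, cC, spec, ⟨K₁, L₁⟩, ⟨K₂, L₂⟩⟩ :=
    exists_family e3_norm (δ := 1 / 100) (by norm_num)
  let B' : E3 → E3 := (ball 0 r).piecewise B (fun _ => 0)
  let C' : E3 → E3 := (ball 0 r).piecewise C (fun _ => 0)
  have hB' : ∀ x ∈ ball (0 : E3) r, B' x = B x := fun x hx => Set.piecewise_eq_of_mem _ _ _ hx
  have hC' : ∀ x ∈ ball (0 : E3) r, C' x = C x := fun x hx => Set.piecewise_eq_of_mem _ _ _ hx
  have cB' : ContinuousOn B' (ball 0 r) := cB.congr hB'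
  have cC' : ContinuousOn C' (ball 0 r) := cC.congr hC'
  let F : Fam E3 :=
    { e := e3
      he := e3_norm
      R := swapR
      hR := swapR_swapR
      hRe := e3_perp
      r := r
      hr := hr
      hrδ := hrδ
      B := B'
      C := C'
      X₁ := X₁
      X₂ := X₂
      cB := cB'
      cC := cC'
      spec₁ := fun x hx => by rw [hB' x hx, hC' x hx]; exact (spec x hx).1
      spec₂ := fun x hx => by rw [hB' x hx, hC' x hx]; exact (spec x hx).2.1
      nB := fun x hx => by rw [hB' x hx]; exact (spec x hx).2.2.1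
      nC := fun x hx => by rw [hC' x hx]; exact (spec x hx).2.2.2.1
      lB := fun x hx => by rw [hB' x hx]; exact (spec x hx).2.2.2.2.1
      lC := fun x hx => by rw [hC' x hx]; exact (spec x hx).2.2.2.2.2 }
  refine ⟨F, ?_, ?_, ⟨K₁, ?_⟩, ⟨K₂, ?_⟩⟩
  · exact cB.measurable_piecewise continuousOn_const measurableSet_ball
  · exact cC.measurable_piecewise continuousOn_const measurableSet_ball
  · have : F.P₁ = B '' ball 0 r := image_congr hB'
    rw [this]; exact L₁
  · have : F.P₂ = C '' ball 0 r := image_congr hC'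
    rw [this]; exact L₂

/-- The answer to the question: a negative one. -/
theorem no_monge_exists : ∃ μ : Measure E3, IsProbabilityMeasure μ ∧ μ ≪ volume ∧
    value3 coulomb μ < ⊤ ∧
    ¬ ∃ T₂ T₃ : E3 → E3, Measurable T₂ ∧ Measurable T₃ ∧ μ.map T₂ = μ ∧ μ.map T₃ = μ ∧
      ∫⁻ x, coulomb x (T₂ x) (T₃ x) ∂μ = value3 coulomb μ := by
  obtain ⟨F, mB, mC, ⟨K₁, L₁⟩, ⟨K₂, L₂⟩⟩ := exists_fam
  let D := F.split (volume : Measure E3) mB mC L₁
  refine ⟨D.μ, D.isProb, F.split_ac _ mB mC L₁ L₂, ?_, D.no_monge⟩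
  rw [D.value_eq]
  exact D.cost₀_lt_top

end Vale.Agent.Lib.P121
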