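import Vale.Agent.Lib.P121.Ineq
import Vale.Agent.Lib.P121.Abstract

/-!
The potentials and the dual inequality on the five pieces.
-/

namespace Vale.Agent.Lib.P121

open scoped RealInnerProductSpace
open Metric Set

theorem Perm3.swap₁ {X : Type*} {a b d x y z : X} (h : Perm3 a b d x y z) : Perm3 b a d x y z := by
  unfold Perm3 at *
  tauto

theorem Perm3.swap₂ {X : Type*} {a b d x y z : X} (h : Perm3 a b d x y z) : Perm3 a d b x y z := by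
  unfold Perm3 at *
  tauto

set_option linter.unusedSectionVars false
set_option linter.unusedVariables false

variable {E : Type*} [NormedAddCommGroup E] [InnerProductSpace ℝ E]

/-- The data of the family of triples. -/
structure Fam (E : Type*) [NormedAddCommGroup E] [InnerProductSpace ℝ E] where
  e : E
  he : ‖e‖ = 1
  R : E ≃ₗᵢ[ℝ] E
  hR : ∀ x, R (R x) = x
  hRe : ⟪e, R e⟫ = 0
  r : ℝ
  hr : 0 < r
  hrδ : r ≤ 1 / 100
  B : E → E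
  C : E → E
  X₁ : E → E
  X₂ : E → E
  cB : ContinuousOn B (ball 0 r)
  cC : ContinuousOn C (ball 0 r)
  spec₁ : ∀ x ∈ ball (0 : E) r, Ψ₁ (x, B x, C x) = 0
  spec₂ : ∀ x ∈ ball (0 : E) r, Ψ₂ e (x, B x, C x) = 0
  nB : ∀ x ∈ ball (0 : E) r, ‖B x - e‖ < 1 / 100
  nC : ∀ x ∈ ball (0 : E) r, ‖C x + e‖ < 1 / 100
  lB : ∀ x ∈ ball (0 : E) r, X₁ (B x) = x
  lC : ∀ x ∈ ball (0 : E) r, X₂ (C x) = x

namespace Fam

variable (F : Fam E)

/-- The inner piece. -/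
def I : Set E := ball 0 F.r

/-- The third map. -/
def f₃ (x : E) : E := F.R (F.B (F.R x))

/-- The fourth map. -/
def f₄ (x : E) : E := F.R (F.C (F.R x))

/-- The pieces. -/
def P₁ : Set E := F.B '' F.I
/-- The pieces. -/
def P₂ : Set E := F.C '' F.I
/-- The pieces. -/
def P₃ : Set E := F.f₃ '' F.I
/-- The pieces. -/
def P₄ : Set E := F.f₄ '' F.I

/-- The support. -/
def Supp : Set E := F.I ∪ F.B '' F.I ∪ F.C '' F.I ∪ F.f₃ '' F.I ∪ F.f₄ '' F.I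

/-- The function defining the second potential. -/
noncomputable def h (x : E) : ℝ := cR x (F.B x) (F.C x) - uI x - u2 F.e (F.C x)

open Classical in
/-- The second potential. -/
noncomputable def u1 (y : E) : ℝ := if y ∈ F.P₁ then F.h (F.X₁ y) else 0

open Classical in
/-- The global potential. -/
noncomputable def U (a : E) : ℝ :=
  if a ∈ F.I then uI a else if a ∈ F.P₁ then F.u1 a else if a ∈ F.P₂ then u2 F.e a
  else if a ∈ F.P₃ then F.u1 (F.R a) else if a ∈ F.P₄ then u2 F.e (F.R a) else 0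

theorem mem_I {a : E} (ha : a ∈ F.I) : ‖a‖ < 1 / 100 := by
  have : ‖a‖ < F.r := by simpa [I] using ha
  exact this.trans_le F.hrδ

theorem R_mem_I {a : E} (ha : a ∈ F.I) : F.R a ∈ F.I := by
  simpa [I] using ha

theorem near₁ {a : E} (ha : a ∈ F.P₁) : ‖a - F.e‖ < 1 / 100 := by
  obtain ⟨x, hx, rfl⟩ := ha
  exact F.nB x hx

theorem near₂ {a : E} (ha : a ∈ F.P₂) : ‖a - -F.e‖ < 1 / 100 := by
  obtain ⟨x, hx, rfl⟩ := ha
  rw [sub_neg_eq_add]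
  exact F.nC x hx

theorem R_P₃ {a : E} (ha : a ∈ F.P₃) : F.R a ∈ F.P₁ := by
  obtain ⟨x, hx, rfl⟩ := ha
  refine ⟨F.R x, F.R_mem_I hx, ?_⟩
  simp [f₃, F.hR]

theorem R_P₄ {a : E} (ha : a ∈ F.P₄) : F.R a ∈ F.P₂ := by
  obtain ⟨x, hx, rfl⟩ := ha
  refine ⟨F.R x, F.R_mem_I hx, ?_⟩
  simp [f₄, F.hR]

theorem near₃ {a : E} (ha : a ∈ F.P₃) : ‖a - F.R F.e‖ < 1 / 100 := by
  have := F.near₁ (F.R_P₃ ha)
  have e1 : F.R a - F.e = F.R (a - F.R F.e) := by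
    simp [F.hR]
  rw [e1, LinearIsometryEquiv.norm_map] at this
  exact this

theorem near₄ {a : E} (ha : a ∈ F.P₄) : ‖a - -F.R F.e‖ < 1 / 100 := by
  have := F.near₂ (F.R_P₄ ha)
  have e1 : F.R a - -F.e = F.R (a - -F.R F.e) := by
    simp [F.hR]
  rw [e1, LinearIsometryEquiv.norm_map] at this
  exact this

theorem hRe' : ‖F.R F.e‖ = 1 := by
  rw [LinearIsometryEquiv.norm_map, F.he]

/-- Norm bound for perpendicular unit vectors. -/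
theorem perp_bound {p q : E} (hp : ‖p‖ = 1) (hq : ‖q‖ = 1) (h : ⟪p, q⟫ = (0 : ℝ)) :
    ‖p - q‖ ≤ 71 / 50 := by
  have h1 : ‖p - q‖ ^ 2 = 2 := by
    rw [norm_sub_sq_real, hp, hq, h]; norm_num
  have h2 : (0 : ℝ) ≤ 71 / 50 := by norm_num
  by_contra hh
  push Not at hh
  nlinarith [norm_nonneg (p - q)]

/-- Norm of a difference of a vector and its opposite. -/
theorem norm_two {p : E} (hp : ‖p‖ = 1) : ‖p - -p‖ = 2 := by
  rw [sub_neg_eq_add, ← two_smul ℝ p, norm_smul, hp]; norm_num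

/-- Lower and upper bounds on the inverse. -/
theorem inv_bounds {t α β : ℝ} (h0 : 0 < α) (h1 : α ≤ t) (h2 : t ≤ β) : β⁻¹ ≤ t⁻¹ ∧ t⁻¹ ≤ α⁻¹ := by
  have ht : 0 < t := lt_of_lt_of_le h0 h1
  exact ⟨inv_anti₀ ht h2, inv_anti₀ h0 h1⟩

theorem uI_bounds {a : E} (ha : ‖a‖ < 1 / 100) : 2499 / 1000 ≤ uI a ∧ uI a ≤ 5 / 2 := by
  have h0 : 0 ≤ ‖a‖ := norm_nonneg a
  simp only [uI]
  constructor <;> nlinarith

theorem u2_bounds {e z : E} (he : ‖e‖ = 1) (hz : ‖z - -e‖ < 1 / 100) :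
    -(13 / 1000 : ℝ) ≤ u2 e z ∧ u2 e z ≤ 13 / 1000 := by
  rw [sub_neg_eq_add] at hz
  have h0 : 0 ≤ ‖z + e‖ := norm_nonneg _
  have hi : |⟪e, z + e⟫| ≤ ‖z + e‖ := by
    have := abs_real_inner_le_norm e (z + e)
    rwa [he, one_mul] at this
  have hi' := abs_le.mp hi
  simp only [u2]
  constructor <;> nlinarith

/-- Base-point distance bounds. -/
theorem base_bounds {x₀ y z₀ : E} (he : ‖F.e‖ = 1) (hx : ‖x₀‖ < 1 / 100) (hy : ‖y - F.e‖ < 1 / 100)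
    (hz : ‖z₀ - -F.e‖ < 1 / 100) :
    (49 / 50 ≤ ‖x₀ - y‖ ∧ ‖x₀ - y‖ ≤ 51 / 50) ∧ (49 / 50 ≤ ‖x₀ - z₀‖ ∧ ‖x₀ - z₀‖ ≤ 51 / 50) ∧
      (99 / 50 ≤ ‖y - z₀‖ ∧ ‖y - z₀‖ ≤ 101 / 50) := by
  have hx' : ‖x₀ - 0‖ < 1 / 100 := by simpa using hx
  have n1 : ‖(0 : E) - F.e‖ = 1 := by simp [F.he]
  have n2 : ‖(0 : E) - -F.e‖ = 1 := by simp [F.he]
  have n3 := norm_two F.he
  refine ⟨⟨?_, ?_⟩, ⟨?_, ?_⟩, ⟨?_, ?_⟩⟩
  · have := dist_lower hx' hy n1.ge; linarith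
  · have := dist_upper hx' hy n1.le; linarith
  · have := dist_lower hx' hz n2.ge; linarith
  · have := dist_upper hx' hz n2.le; linarith
  · have := dist_lower hy hz n3.ge; linarith
  · have := dist_upper hy hz n3.le; linarith

theorem h_bounds {x : E} (hx : x ∈ F.I) : -(3 / 50 : ℝ) ≤ F.h x ∧ F.h x ≤ 3 / 50 := by
  have hx' := F.mem_I hx
  have hB := F.nB x hx
  have hC : ‖F.C x - -F.e‖ < 1 / 100 := by
    rw [sub_neg_eq_add]; exact F.nC x hx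
  obtain ⟨⟨a1, a2⟩, ⟨b1, b2⟩, ⟨c1, c2⟩⟩ := F.base_bounds F.he hx' hB hC
  obtain ⟨a3, a4⟩ := inv_bounds (by norm_num) a1 a2
  obtain ⟨b3, b4⟩ := inv_bounds (by norm_num) b1 b2
  obtain ⟨c3, c4⟩ := inv_bounds (by norm_num) c1 c2
  obtain ⟨u3, u4⟩ := uI_bounds hx'
  obtain ⟨v3, v4⟩ := u2_bounds F.he hC
  simp only [h, cR]
  norm_num at a3 a4 b3 b4 c3 c4 ⊢
  constructor <;> linarith

/-! ### Disjointness of the pieces -/

theorem I_not_P₁ {a : E} (ha : a ∈ F.P₁) : a ∉ F.I := by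
  intro h
  have h1 := F.mem_I h
  have h2 := F.near₁ ha
  have : ‖F.e‖ ≤ ‖a - F.e‖ + ‖a‖ := by
    calc ‖F.e‖ = ‖a - (a - F.e)‖ := by simp
      _ ≤ ‖a‖ + ‖a - F.e‖ := norm_sub_le _ _
      _ = _ := add_comm _ _
  rw [F.he] at this
  linarith

theorem near_apart {a b p q : E} (ha : ‖a - p‖ < 1 / 100) (hb : ‖b - q‖ < 1 / 100)
    (hpq : 1 ≤ ‖p - q‖) : a ≠ b := by
  rintro rfl
  have := dist_lower ha hb hpq
  simp at this
  linarith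

theorem zero_near {a : E} (h : ‖a‖ < 1 / 100) : ‖a - 0‖ < 1 / 100 := by simpa using h

theorem n_e_me : 1 ≤ ‖F.e - -F.e‖ := by rw [norm_two F.he]; norm_num
theorem n_Re_mRe : 1 ≤ ‖F.R F.e - -F.R F.e‖ := by rw [norm_two F.hRe']; norm_num

theorem n_sq (p q : E) (hp : ‖p‖ = 1) (hq : ‖q‖ = 1) (h : ⟪p, q⟫ = (0 : ℝ)) : 1 ≤ ‖p - q‖ := by
  have h1 : ‖p - q‖ ^ 2 = 2 := by
    rw [norm_sub_sq_real, hp, hq, h]; norm_num
  nlinarith [norm_nonneg (p - q)]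

theorem hp1 : ⟪F.e, F.R F.e⟫ = (0 : ℝ) := F.hRe
theorem hp2 : ⟪F.e, -F.R F.e⟫ = (0 : ℝ) := by rw [inner_neg_right, F.hRe, neg_zero]
theorem hp3 : ⟪-F.e, F.R F.e⟫ = (0 : ℝ) := by rw [inner_neg_left, F.hRe, neg_zero]
theorem hp4 : ⟪-F.e, -F.R F.e⟫ = (0 : ℝ) := by
  rw [inner_neg_left, inner_neg_right, F.hRe]; simp

theorem U_I {a : E} (ha : a ∈ F.I) : F.U a = uI a := by
  simp [U, ha]

theorem U_P₁ {a : E} (ha : a ∈ F.P₁) : F.U a = F.h (F.X₁ a) := by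
  have h1 : a ∉ F.I := F.I_not_P₁ ha
  simp [U, u1, ha, h1]

theorem ne_of_P {a b : E} {p q : E} (ha : ‖a - p‖ < 1 / 100) (hb : ‖b - q‖ < 1 / 100)
    (hpq : 1 ≤ ‖p - q‖) : a ≠ b := near_apart ha hb hpq

theorem I_P₂ {a : E} (ha : a ∈ F.P₂) : a ∉ F.I := by
  intro h
  refine ne_of_P (zero_near (F.mem_I h)) (F.near₂ ha) ?_ rfl
  simp [F.he]

theorem P₁_P₂ {a : E} (ha : a ∈ F.P₂) : a ∉ F.P₁ := by
  intro h
  exact ne_of_P (F.near₁ h) (F.near₂ ha) F.n_e_me rfl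

theorem U_P₂ {a : E} (ha : a ∈ F.P₂) : F.U a = u2 F.e a := by
  have h1 := F.I_P₂ ha
  have h2 := F.P₁_P₂ ha
  simp [U, ha, h1, h2]

theorem I_P₃ {a : E} (ha : a ∈ F.P₃) : a ∉ F.I := by
  intro h
  refine ne_of_P (zero_near (F.mem_I h)) (F.near₃ ha) ?_ rfl
  simp [F.hRe']

theorem P₁_P₃ {a : E} (ha : a ∈ F.P₃) : a ∉ F.P₁ := by
  intro h
  exact ne_of_P (F.near₁ h) (F.near₃ ha) (n_sq _ _ F.he F.hRe' F.hp1) rfl

theorem P₂_P₃ {a : E} (ha : a ∈ F.P₃) : a ∉ F.P₂ := by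
  intro h
  exact ne_of_P (F.near₂ h) (F.near₃ ha) (n_sq _ _ (by simp [F.he]) F.hRe' F.hp3) rfl

theorem U_P₃ {a : E} (ha : a ∈ F.P₃) : F.U a = F.h (F.X₁ (F.R a)) := by
  have h1 := F.I_P₃ ha
  have h2 := F.P₁_P₃ ha
  have h3 := F.P₂_P₃ ha
  have h4 := F.R_P₃ ha
  simp [U, u1, ha, h1, h2, h3, h4]

theorem I_P₄ {a : E} (ha : a ∈ F.P₄) : a ∉ F.I := by
  intro h
  refine ne_of_P (zero_near (F.mem_I h)) (F.near₄ ha) ?_ rfl
  simp [F.hRe']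

theorem P₁_P₄ {a : E} (ha : a ∈ F.P₄) : a ∉ F.P₁ := by
  intro h
  exact ne_of_P (F.near₁ h) (F.near₄ ha) (n_sq _ _ F.he (by simp [F.hRe']) F.hp2) rfl

theorem P₂_P₄ {a : E} (ha : a ∈ F.P₄) : a ∉ F.P₂ := by
  intro h
  exact ne_of_P (F.near₂ h) (F.near₄ ha) (n_sq _ _ (by simp [F.he]) (by simp [F.hRe']) F.hp4) rfl

theorem P₃_P₄ {a : E} (ha : a ∈ F.P₄) : a ∉ F.P₃ := by
  intro h
  exact ne_of_P (F.near₃ h) (F.near₄ ha) F.n_Re_mRe rfl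

theorem U_P₄ {a : E} (ha : a ∈ F.P₄) : F.U a = u2 F.e (F.R a) := by
  have h1 := F.I_P₄ ha
  have h2 := F.P₁_P₄ ha
  have h3 := F.P₂_P₄ ha
  have h4 := F.P₃_P₄ ha
  simp [U, ha, h1, h2, h3, h4]

/-! ### Bounds on the potential -/

theorem U_P₁_bd {a : E} (ha : a ∈ F.P₁) : -(3 / 50 : ℝ) ≤ F.U a ∧ F.U a ≤ 3 / 50 := by
  rw [F.U_P₁ ha]
  obtain ⟨x, hx, rfl⟩ := ha
  rw [F.lB x hx]
  exact F.h_bounds hx

theorem U_P₂_bd {a : E} (ha : a ∈ F.P₂) : -(3 / 50 : ℝ) ≤ F.U a ∧ F.U a ≤ 3 / 50 := by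
  rw [F.U_P₂ ha]
  have := u2_bounds F.he (F.near₂ ha)
  constructor <;> linarith [this.1, this.2]

theorem U_P₃_bd {a : E} (ha : a ∈ F.P₃) : -(3 / 50 : ℝ) ≤ F.U a ∧ F.U a ≤ 3 / 50 := by
  rw [F.U_P₃ ha]
  obtain ⟨x, hx, hxe⟩ := F.R_P₃ ha
  rw [← hxe, F.lB x hx]
  exact F.h_bounds hx

theorem U_P₄_bd {a : E} (ha : a ∈ F.P₄) : -(3 / 50 : ℝ) ≤ F.U a ∧ F.U a ≤ 3 / 50 := by
  rw [F.U_P₄ ha]
  have := u2_bounds F.he (F.near₂ (F.R_P₄ ha))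
  constructor <;> linarith [this.1, this.2]

theorem U_I_bd {a : E} (ha : a ∈ F.I) : 2499 / 1000 ≤ F.U a ∧ F.U a ≤ 5 / 2 := by
  rw [F.U_I ha]
  exact uI_bounds (F.mem_I ha)

/-- A point of the support is in the inner piece or in one of the four outer pieces. -/
theorem Supp_cases {a : E} (ha : a ∈ F.Supp) :
    a ∈ F.I ∨ a ∈ F.P₁ ∨ a ∈ F.P₂ ∨ a ∈ F.P₃ ∨ a ∈ F.P₄ := by
  rcases ha with ((((h | h) | h) | h) | h)
  · exact Or.inl h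
  · exact Or.inr (Or.inl h)
  · exact Or.inr (Or.inr (Or.inl h))
  · exact Or.inr (Or.inr (Or.inr (Or.inl h)))
  · exact Or.inr (Or.inr (Or.inr (Or.inr h)))

theorem U_bd {a : E} (ha : a ∈ F.Supp) : -(3 / 50 : ℝ) ≤ F.U a ∧ F.U a ≤ 5 / 2 := by
  rcases F.Supp_cases ha with h | h | h | h | h
  · have := F.U_I_bd h; constructor <;> linarith [this.1, this.2]
  · have := F.U_P₁_bd h; constructor <;> linarith [this.1, this.2]
  · have := F.U_P₂_bd h; constructor <;> linarith [this.1, this.2]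
  · have := F.U_P₃_bd h; constructor <;> linarith [this.1, this.2]
  · have := F.U_P₄_bd h; constructor <;> linarith [this.1, this.2]

/-- The outer-piece bound. -/
theorem U_outer_bd {a : E} (ha : a ∈ F.Supp) (hI : a ∉ F.I) :
    F.U a ≤ 3 / 50 ∧ ‖a‖ < 101 / 100 := by
  have n_e : ‖F.e‖ = 1 := F.he
  have n_Re : ‖F.R F.e‖ = 1 := F.hRe'
  have aux : ∀ p : E, ‖p‖ = 1 → ‖a - p‖ < 1 / 100 → ‖a‖ < 101 / 100 := by
    intro p hp h
    have := norm_sub_norm_le a p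
    rw [hp] at this
    norm_num at h ⊢
    linarith
  rcases F.Supp_cases ha with h | h | h | h | h
  · exact absurd h hI
  · exact ⟨(F.U_P₁_bd h).2, aux _ n_e (F.near₁ h)⟩
  · exact ⟨(F.U_P₂_bd h).2, aux _ (by simp [n_e]) (F.near₂ h)⟩
  · exact ⟨(F.U_P₃_bd h).2, aux _ n_Re (F.near₃ h)⟩
  · exact ⟨(F.U_P₄_bd h).2, aux _ (by simp [n_Re]) (F.near₄ h)⟩

/-- The complementary slackness statement for a triple. -/
def Q (a b d : E) : Prop :=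
  F.U a + F.U b + F.U d ≤ cR a b d ∧ (F.U a + F.U b + F.U d = cR a b d →
    ∃ x ∈ F.I, Perm3 a b d x (F.B x) (F.C x) ∨ Perm3 a b d x (F.f₃ x) (F.f₄ x))

theorem Q_swap₁ {a b d : E} (h : F.Q a b d) : F.Q b a d := by
  refine ⟨?_, ?_⟩
  · rw [← cR_swap₁]; linarith [h.1]
  · intro h2
    obtain ⟨x, hx, hp⟩ := h.2 (by rw [cR_swap₁, ← h2]; ring)
    exact ⟨x, hx, hp.imp (·.swap₁) (·.swap₁)⟩

theorem Q_swap₂ {a b d : E} (h : F.Q a b d) : F.Q a d b := by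
  refine ⟨?_, ?_⟩
  · rw [← cR_swap₂]; linarith [h.1]
  · intro h2
    obtain ⟨x, hx, hp⟩ := h.2 (by rw [cR_swap₂, ← h2]; ring)
    exact ⟨x, hx, hp.imp (·.swap₂) (·.swap₂)⟩

theorem Q_of_lt {a b d : E} (h : F.U a + F.U b + F.U d < cR a b d) : F.Q a b d :=
  ⟨h.le, fun h2 => absurd h2 h.ne⟩

/-- Two points close to each other. -/
theorem Q_close {a b d : E} (ha : a ∈ F.Supp) (hb : b ∈ F.Supp) (hd : d ∈ F.Supp) (hab : a ≠ b)
    (hclose : ‖a - b‖ < 1 / 50) : F.Q a b d := by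
  apply F.Q_of_lt
  have h0 : 0 < ‖a - b‖ := norm_pos_iff.mpr (sub_ne_zero.mpr hab)
  have h1 : (50 : ℝ) ≤ ‖a - b‖⁻¹ := by
    rw [le_inv_comm₀ (by norm_num) h0]
    norm_num at hclose ⊢
    linarith
  have h2 : 0 ≤ ‖a - d‖⁻¹ := by positivity
  have h3 : 0 ≤ ‖b - d‖⁻¹ := by positivity
  have ua := (F.U_bd ha).2
  have ub := (F.U_bd hb).2
  have ud := (F.U_bd hd).2
  simp only [cR]
  linarith

theorem close_P₁ {a b : E} (ha : a ∈ F.P₁) (hb : b ∈ F.P₁) : ‖a - b‖ < 1 / 50 := by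
  have := dist_upper (F.near₁ ha) (F.near₁ hb) (α := 0) (by simp)
  linarith
theorem close_P₂ {a b : E} (ha : a ∈ F.P₂) (hb : b ∈ F.P₂) : ‖a - b‖ < 1 / 50 := by
  have := dist_upper (F.near₂ ha) (F.near₂ hb) (α := 0) (by simp)
  linarith
theorem close_P₃ {a b : E} (ha : a ∈ F.P₃) (hb : b ∈ F.P₃) : ‖a - b‖ < 1 / 50 := by
  have := dist_upper (F.near₃ ha) (F.near₃ hb) (α := 0) (by simp)
  linarith
theorem close_P₄ {a b : E} (ha : a ∈ F.P₄) (hb : b ∈ F.P₄) : ‖a - b‖ < 1 / 50 := by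
  have := dist_upper (F.near₄ ha) (F.near₄ hb) (α := 0) (by simp)
  linarith
theorem close_I {a b : E} (ha : a ∈ F.I) (hb : b ∈ F.I) : ‖a - b‖ < 1 / 50 := by
  have := dist_upper (zero_near (F.mem_I ha)) (zero_near (F.mem_I hb)) (α := 0) (by simp)
  linarith

/-- No point in the inner piece. -/
theorem Q_outer {a b d : E} (ha : a ∈ F.Supp) (hb : b ∈ F.Supp) (hd : d ∈ F.Supp)
    (haI : a ∉ F.I) (hbI : b ∉ F.I) (hdI : d ∉ F.I) (hab : a ≠ b) (had : a ≠ d) (hbd : b ≠ d) :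
    F.Q a b d := by
  apply F.Q_of_lt
  obtain ⟨ua, na⟩ := F.U_outer_bd ha haI
  obtain ⟨ub, nb⟩ := F.U_outer_bd hb hbI
  obtain ⟨ud, nd⟩ := F.U_outer_bd hd hdI
  have key : ∀ s t : E, s ≠ t → ‖s‖ < 101 / 100 → ‖t‖ < 101 / 100 → (1 / 3 : ℝ) ≤ ‖s - t‖⁻¹ := by
    intro s t hst hs ht
    have h0 : 0 < ‖s - t‖ := norm_pos_iff.mpr (sub_ne_zero.mpr hst)
    have h1 := norm_sub_le s t
    rw [le_inv_comm₀ (by norm_num) h0]
    norm_num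
    linarith
  have k1 := key _ _ hab na nb
  have k2 := key _ _ had na nd
  have k3 := key _ _ hbd nb nd
  simp only [cR]
  linarith

/-- The mixed case. -/
theorem Q_mix {a b d p q : E} (ha : a ∈ F.I) (hb : b ∈ F.Supp) (hd : d ∈ F.Supp) (hbI : b ∉ F.I)
    (hdI : d ∉ F.I) (hab : a ≠ b) (had : a ≠ d) (hbd : b ≠ d) (hbp : ‖b - p‖ < 1 / 100)
    (hdq : ‖d - q‖ < 1 / 100) (hpq : ‖p - q‖ ≤ 71 / 50) : F.Q a b d := by
  apply F.Q_of_lt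
  have ua := (F.U_I_bd ha).2
  obtain ⟨ub, nb⟩ := F.U_outer_bd hb hbI
  obtain ⟨ud, nd⟩ := F.U_outer_bd hd hdI
  have na := F.mem_I ha
  have key : ∀ s t : E, s ≠ t → ‖s‖ < 1 / 100 → ‖t‖ < 101 / 100 → (50 / 51 : ℝ) ≤ ‖s - t‖⁻¹ := by
    intro s t hst hs ht
    have h0 : 0 < ‖s - t‖ := norm_pos_iff.mpr (sub_ne_zero.mpr hst)
    have h1 := norm_sub_le s t
    rw [le_inv_comm₀ (by norm_num) h0]
    norm_num
    linarith
  have k1 := key _ _ hab na nb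
  have k2 := key _ _ had na nd
  have k3 : (25 / 36 : ℝ) ≤ ‖b - d‖⁻¹ := by
    have h0 : 0 < ‖b - d‖ := norm_pos_iff.mpr (sub_ne_zero.mpr hbd)
    have h1 := dist_upper hbp hdq hpq
    rw [le_inv_comm₀ (by norm_num) h0]
    norm_num at h1 ⊢
    linarith
  simp only [cR]
  norm_num at k1 k2 k3 ⊢
  linarith

/-- The first family. -/
theorem Q_fam₁ {a b d : E} (ha : a ∈ F.I) (hb : b ∈ F.P₁) (hd : d ∈ F.P₂) : F.Q a b d := by
  obtain ⟨x₀, hx₀, rfl⟩ := id hb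
  have ua : F.U a = uI a := F.U_I ha
  have ub : F.U (F.B x₀) = F.h x₀ := by rw [F.U_P₁ hb, F.lB x₀ hx₀]
  have ud : F.U d = u2 F.e d := F.U_P₂ hd
  have hC₀ : ‖F.C x₀ - -F.e‖ < 1 / 100 := by
    rw [sub_neg_eq_add]; exact F.nC x₀ hx₀
  obtain ⟨⟨a1, -⟩, ⟨b1, -⟩, ⟨c1, -⟩⟩ := F.base_bounds F.he (F.mem_I hx₀) (F.nB x₀ hx₀) hC₀
  obtain ⟨⟨a2, -⟩, ⟨b2, -⟩, ⟨c2, -⟩⟩ := F.base_bounds F.he (F.mem_I ha) (F.near₁ hb) (F.near₂ hd)
  have pos : ∀ t : ℝ, 49 / 50 ≤ t → t ≠ 0 := fun t ht => by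
    intro h0; rw [h0] at ht; norm_num at ht
  have n1 : a - F.B x₀ ≠ 0 := fun h => by
    rw [h, norm_zero] at a2; norm_num at a2
  have n2 : a - d ≠ 0 := fun h => by
    rw [h, norm_zero] at b2; norm_num at b2
  have n3 : F.B x₀ - d ≠ 0 := fun h => by
    rw [h, norm_zero] at c2; norm_num at c2
  have key := family_ineq (F.spec₁ x₀ hx₀) (F.spec₂ x₀ hx₀) a1 b1 c1 n1 n2 n3
  have hh : cR x₀ (F.B x₀) (F.C x₀) - uI x₀ - u2 F.e (F.C x₀) = F.h x₀ := rfl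
  rw [hh] at key
  have nx : (0 : ℝ) ≤ ‖a - x₀‖ ^ 2 := by positivity
  have nz : (0 : ℝ) ≤ ‖d - F.C x₀‖ ^ 2 := by positivity
  refine ⟨?_, ?_⟩
  · rw [ua, ub, ud]; linarith
  · intro heq
    rw [ua, ub, ud] at heq
    have z1 : ‖a - x₀‖ ^ 2 = 0 := by linarith
    have z2 : ‖d - F.C x₀‖ ^ 2 = 0 := by linarith
    have e1 : a = x₀ := by
      have := pow_eq_zero_iff (n := 2) (by norm_num) |>.mp z1
      exact sub_eq_zero.mp (norm_eq_zero.mp this)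
    have e2 : d = F.C x₀ := by
      have := pow_eq_zero_iff (n := 2) (by norm_num) |>.mp z2
      exact sub_eq_zero.mp (norm_eq_zero.mp this)
    exact ⟨x₀, hx₀, Or.inl (Or.inl ⟨e1, rfl, e2⟩)⟩

theorem perm_R {a b d x y z : E} (h : Perm3 (F.R a) (F.R b) (F.R d) x y z) :
    Perm3 a b d (F.R x) (F.R y) (F.R z) := by
  have inv : ∀ s t : E, F.R s = t → s = F.R t := by
    rintro s t rfl; rw [F.hR]
  unfold Perm3 at *
  rcases h with ⟨h1, h2, h3⟩ | ⟨h1, h2, h3⟩ | ⟨h1, h2, h3⟩ | ⟨h1, h2, h3⟩ | ⟨h1, h2, h3⟩ | ⟨h1, h2, h3⟩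
  · exact Or.inl ⟨inv _ _ h1, inv _ _ h2, inv _ _ h3⟩
  · exact Or.inr (Or.inl ⟨inv _ _ h1, inv _ _ h2, inv _ _ h3⟩)
  · exact Or.inr (Or.inr (Or.inl ⟨inv _ _ h1, inv _ _ h2, inv _ _ h3⟩))
  · exact Or.inr (Or.inr (Or.inr (Or.inl ⟨inv _ _ h1, inv _ _ h2, inv _ _ h3⟩)))
  · exact Or.inr (Or.inr (Or.inr (Or.inr (Or.inl ⟨inv _ _ h1, inv _ _ h2, inv _ _ h3⟩))))
  · exact Or.inr (Or.inr (Or.inr (Or.inr (Or.inr ⟨inv _ _ h1, inv _ _ h2, inv _ _ h3⟩))))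

theorem cR_R (a b d : E) : cR (F.R a) (F.R b) (F.R d) = cR a b d := by
  simp only [cR, ← map_sub, LinearIsometryEquiv.norm_map]

theorem uI_R (a : E) : uI (F.R a) = uI a := by
  simp only [uI, LinearIsometryEquiv.norm_map]

/-- The second family. -/
theorem Q_fam₂ {a b d : E} (ha : a ∈ F.I) (hb : b ∈ F.P₃) (hd : d ∈ F.P₄) : F.Q a b d := by
  have ha' := F.R_mem_I ha
  have hb' := F.R_P₃ hb
  have hd' := F.R_P₄ hd
  have key := F.Q_fam₁ ha' hb' hd'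
  have ua : F.U (F.R a) = F.U a := by rw [F.U_I ha', F.U_I ha, uI_R]
  have ub : F.U (F.R b) = F.U b := by rw [F.U_P₁ hb', F.U_P₃ hb]
  have ud : F.U (F.R d) = F.U d := by rw [F.U_P₂ hd', F.U_P₄ hd]
  obtain ⟨k1, k2⟩ := key
  rw [ua, ub, ud, cR_R] at k1 k2
  refine ⟨k1, fun heq => ?_⟩
  obtain ⟨x, hx, hp⟩ := k2 heq
  rcases hp with hp | hp
  · refine ⟨F.R x, F.R_mem_I hx, Or.inr ?_⟩
    have := F.perm_R hp
    simpa [f₃, f₄, F.hR] using this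
  · refine ⟨F.R x, F.R_mem_I hx, Or.inl ?_⟩
    have := F.perm_R hp
    simpa [f₃, f₄, F.hR] using this

/-- Rotation of a triple. -/
theorem Q_rot {a b d : E} (h : F.Q b d a) : F.Q a b d := F.Q_swap₁ (F.Q_swap₂ h)

/-- Exactly one point in the inner piece, or more. -/
theorem Q_inner {a b d : E} (ha : a ∈ F.I) (hb : b ∈ F.Supp) (hd : d ∈ F.Supp) (hab : a ≠ b)
    (had : a ≠ d) (hbd : b ≠ d) : F.Q a b d := by
  have ha' : a ∈ F.Supp := Or.inl (Or.inl (Or.inl (Or.inl ha)))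
  by_cases hbI : b ∈ F.I
  · exact F.Q_close ha' hb hd hab (F.close_I ha hbI)
  by_cases hdI : d ∈ F.I
  · exact F.Q_swap₂ (F.Q_close ha' hd hb had (F.close_I ha hdI))
  have n1 := F.he
  have n2 : ‖-F.e‖ = 1 := by simp [F.he]
  have n3 := F.hRe'
  have n4 : ‖-F.R F.e‖ = 1 := by simp [F.hRe']
  rcases F.Supp_cases hb with h | h | h | h | h
  · exact absurd h hbI
  · rcases F.Supp_cases hd with k | k | k | k | k
    · exact absurd k hdI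
    · exact F.Q_rot (F.Q_close hb hd ha' hbd (F.close_P₁ h k))
    · exact F.Q_fam₁ ha h k
    · exact F.Q_mix ha hb hd hbI hdI hab had hbd (F.near₁ h) (F.near₃ k) (perp_bound n1 n3 F.hp1)
    · exact F.Q_mix ha hb hd hbI hdI hab had hbd (F.near₁ h) (F.near₄ k) (perp_bound n1 n4 F.hp2)
  · rcases F.Supp_cases hd with k | k | k | k | k
    · exact absurd k hdI
    · exact F.Q_swap₂ (F.Q_fam₁ ha k h)
    · exact F.Q_rot (F.Q_close hb hd ha' hbd (F.close_P₂ h k))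
    · exact F.Q_mix ha hb hd hbI hdI hab had hbd (F.near₂ h) (F.near₃ k) (perp_bound n2 n3 F.hp3)
    · exact F.Q_mix ha hb hd hbI hdI hab had hbd (F.near₂ h) (F.near₄ k) (perp_bound n2 n4 F.hp4)
  · rcases F.Supp_cases hd with k | k | k | k | k
    · exact absurd k hdI
    · exact F.Q_swap₂ (F.Q_mix ha hd hb hdI hbI had hab hbd.symm (F.near₁ k) (F.near₃ h)
        (perp_bound n1 n3 F.hp1))
    · exact F.Q_swap₂ (F.Q_mix ha hd hb hdI hbI had hab hbd.symm (F.near₂ k) (F.near₃ h)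
        (perp_bound n2 n3 F.hp3))
    · exact F.Q_rot (F.Q_close hb hd ha' hbd (F.close_P₃ h k))
    · exact F.Q_fam₂ ha h k
  · rcases F.Supp_cases hd with k | k | k | k | k
    · exact absurd k hdI
    · exact F.Q_swap₂ (F.Q_mix ha hd hb hdI hbI had hab hbd.symm (F.near₁ k) (F.near₄ h)
        (perp_bound n1 n4 F.hp2))
    · exact F.Q_swap₂ (F.Q_mix ha hd hb hdI hbI had hab hbd.symm (F.near₂ k) (F.near₄ h)
        (perp_bound n2 n4 F.hp4))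
    · exact F.Q_swap₂ (F.Q_fam₂ ha k h)
    · exact F.Q_rot (F.Q_close hb hd ha' hbd (F.close_P₄ h k))

/-- The full statement on the support. -/
theorem Q_all {a b d : E} (ha : a ∈ F.Supp) (hb : b ∈ F.Supp) (hd : d ∈ F.Supp) (hab : a ≠ b)
    (had : a ≠ d) (hbd : b ≠ d) : F.Q a b d := by
  by_cases h1 : a ∈ F.I
  · exact F.Q_inner h1 hb hd hab had hbd
  by_cases h2 : b ∈ F.I
  · exact F.Q_swap₁ (F.Q_inner h2 ha hd hab.symm hbd had)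
  by_cases h3 : d ∈ F.I
  · exact F.Q_swap₂ (F.Q_swap₁ (F.Q_inner h3 ha hb had.symm hbd.symm hab))
  exact F.Q_outer ha hb hd h1 h2 h3 hab had hbd

/-- Complementary slackness on the first family. -/
theorem eq₁_real {x : E} (hx : x ∈ F.I) : F.U x + F.U (F.B x) + F.U (F.C x) = cR x (F.B x) (F.C x) := by
  rw [F.U_I hx, F.U_P₁ (mem_image_of_mem _ hx), F.lB x hx, F.U_P₂ (mem_image_of_mem _ hx)]
  simp only [h]
  ring

/-- Complementary slackness on the second family. -/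
theorem eq₂_real {x : E} (hx : x ∈ F.I) :
    F.U x + F.U (F.f₃ x) + F.U (F.f₄ x) = cR x (F.f₃ x) (F.f₄ x) := by
  have hx' := F.R_mem_I hx
  have r3 : F.R (F.f₃ x) = F.B (F.R x) := by simp [f₃, F.hR]
  have r4 : F.R (F.f₄ x) = F.C (F.R x) := by simp [f₄, F.hR]
  rw [F.U_I hx, F.U_P₃ (mem_image_of_mem _ hx), r3, F.lB _ hx', F.U_P₄ (mem_image_of_mem _ hx), r4]
  have := F.cR_R (F.R x) (F.B (F.R x)) (F.C (F.R x))
  rw [F.hR] at this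
  simp only [f₃, f₄]
  rw [this]
  simp only [h]
  rw [F.uI_R]
  ring

/-- Distinctness of the points of a triple of the first family. -/
theorem dist₁ {x : E} (hx : x ∈ F.I) : x ≠ F.B x ∧ x ≠ F.C x ∧ F.B x ≠ F.C x := by
  have hb : F.B x ∈ F.P₁ := mem_image_of_mem _ hx
  have hc : F.C x ∈ F.P₂ := mem_image_of_mem _ hx
  refine ⟨fun h => F.I_not_P₁ hb (h ▸ hx), fun h => F.I_P₂ hc (h ▸ hx), fun h => F.P₁_P₂ hc (h ▸ hb)⟩

/-- Distinctness of the points of a triple of the second family. -/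
theorem dist₂ {x : E} (hx : x ∈ F.I) : x ≠ F.f₃ x ∧ x ≠ F.f₄ x ∧ F.f₃ x ≠ F.f₄ x := by
  have hb : F.f₃ x ∈ F.P₃ := mem_image_of_mem _ hx
  have hc : F.f₄ x ∈ F.P₄ := mem_image_of_mem _ hx
  refine ⟨fun h => F.I_P₃ hb (h ▸ hx), fun h => F.I_P₄ hc (h ▸ hx), fun h => F.P₃_P₄ hc (h ▸ hb)⟩

end Fam

end Vale.Agent.Lib.P121
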