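import Vale.Agent.Lib.P121.Local

/-!
Elementary inequalities for the Coulomb kernel.
-/

namespace Vale.Agent.Lib.P121

open scoped RealInnerProductSpace

section Ineq

set_option linter.unusedSectionVars false

variable {E : Type*} [NormedAddCommGroup E] [InnerProductSpace ℝ E]

/-- The real-valued Coulomb cost. -/
noncomputable def cR (x y z : E) : ℝ := ‖x - y‖⁻¹ + ‖x - z‖⁻¹ + ‖y - z‖⁻¹

theorem cR_swap₁ (a b d : E) : cR a b d = cR b a d := by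
  simp only [cR]; rw [norm_sub_rev a b]; ring

theorem cR_swap₂ (a b d : E) : cR a b d = cR a d b := by
  simp only [cR]; rw [norm_sub_rev b d]; ring

/-- Semi-convexity of the kernel. -/
theorem semi {w w' : E} (hw : w ≠ 0) (hw' : w' ≠ 0) :
    ‖w‖⁻¹ + ⟪g w, w' - w⟫ - ‖w' - w‖ ^ 2 * (2 * ‖w‖ ^ 3)⁻¹ ≤ ‖w'‖⁻¹ := by
  have ha : 0 < ‖w‖ := norm_pos_iff.mpr hw
  have hb : 0 < ‖w'‖ := norm_pos_iff.mpr hw'
  have h1 : ⟪g w, w' - w⟫ = -(‖w‖ ^ 3)⁻¹ * (⟪w, w'⟫ - ‖w‖ ^ 2) := by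
    simp only [g, inner_smul_left, inner_sub_right, real_inner_self_eq_norm_sq]
    simp
    ring
  have h2 : ‖w' - w‖ ^ 2 = ‖w'‖ ^ 2 - 2 * ⟪w, w'⟫ + ‖w‖ ^ 2 := by
    rw [norm_sub_sq_real, real_inner_comm]
  rw [h1, h2]
  generalize ⟪w, w'⟫ = t
  generalize ‖w‖ = a at *
  generalize ‖w'‖ = b at *
  have key : b⁻¹ - (a⁻¹ + -(a ^ 3)⁻¹ * (t - a ^ 2) - (b ^ 2 - 2 * t + a ^ 2) * (2 * a ^ 3)⁻¹) =
      (a - b) ^ 2 * (2 * a + b) / (2 * a ^ 3 * b) := by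
    field_simp
    ring
  have : 0 ≤ (a - b) ^ 2 * (2 * a + b) / (2 * a ^ 3 * b) := by positivity
  linarith

/-- Triangle inequalities from centres. -/
theorem dist_lower {a b p q : E} {α δ₁ δ₂ : ℝ} (h₁ : ‖a - p‖ < δ₁) (h₂ : ‖b - q‖ < δ₂)
    (hpq : α ≤ ‖p - q‖) : α - δ₁ - δ₂ < ‖a - b‖ := by
  have : ‖p - q‖ ≤ ‖a - p‖ + ‖a - b‖ + ‖b - q‖ := by
    calc ‖p - q‖ = ‖-(a - p) + (a - b) + (b - q)‖ := by congr 1; abel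
      _ ≤ ‖-(a - p)‖ + ‖a - b‖ + ‖b - q‖ := norm_add₃_le
      _ = _ := by rw [norm_neg]
  linarith

theorem dist_upper {a b p q : E} {α δ₁ δ₂ : ℝ} (h₁ : ‖a - p‖ < δ₁) (h₂ : ‖b - q‖ < δ₂)
    (hpq : ‖p - q‖ ≤ α) : ‖a - b‖ < α + δ₁ + δ₂ := by
  have : ‖a - b‖ ≤ ‖a - p‖ + ‖p - q‖ + ‖b - q‖ := by
    calc ‖a - b‖ = ‖(a - p) + (p - q) + -(b - q)‖ := by congr 1; abel
      _ ≤ ‖a - p‖ + ‖p - q‖ + ‖-(b - q)‖ := norm_add₃_le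
      _ = _ := by rw [norm_neg]
  linarith

/-- Potential on the inner piece. -/
noncomputable def uI (x : E) : ℝ := 5 / 2 - 2 * ‖x‖ ^ 2

/-- Potential near `-e`. -/
noncomputable def u2 (e z : E) : ℝ := (5 / 4) * ⟪e, z + e⟫ - 2 * ‖z + e‖ ^ 2

theorem uI_diff (x₀ x : E) : uI x - uI x₀ = -(4 * ⟪x₀, x - x₀⟫) - 2 * ‖x - x₀‖ ^ 2 := by
  have : x = x₀ + (x - x₀) := by abel
  simp only [uI]
  rw [this, add_sub_cancel_left, norm_add_sq_real]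
  ring

theorem u2_diff (e z₀ z : E) : u2 e z - u2 e z₀ =
    (5 / 4) * ⟪e, z - z₀⟫ - 4 * ⟪z₀ + e, z - z₀⟫ - 2 * ‖z - z₀‖ ^ 2 := by
  have h : z + e = (z₀ + e) + (z - z₀) := by abel
  simp only [u2]
  rw [h, norm_add_sq_real, inner_add_right]
  have : (z₀ + e) + (z - z₀) - z₀ = z - z₀ + e := by abel
  simp only [inner_sub_right, inner_add_right]
  ring

/-- The family inequality. -/
theorem family_ineq {e x₀ y z₀ x z : E} (h₁ : Ψ₁ (x₀, y, z₀) = 0) (h₂ : Ψ₂ e (x₀, y, z₀) = 0)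
    (ha : 49 / 50 ≤ ‖x₀ - y‖) (hb : 49 / 50 ≤ ‖x₀ - z₀‖) (hc : 99 / 50 ≤ ‖y - z₀‖)
    (n1 : x - y ≠ 0) (n2 : x - z ≠ 0) (n3 : y - z ≠ 0) :
    (1 / 5) * ‖x - x₀‖ ^ 2 + (4 / 5) * ‖z - z₀‖ ^ 2 ≤
      (cR x y z - uI x - u2 e z) - (cR x₀ y z₀ - uI x₀ - u2 e z₀) := by
  have ha0 : 0 < ‖x₀ - y‖ := by linarith
  have hb0 : 0 < ‖x₀ - z₀‖ := by linarith
  have hc0 : 0 < ‖y - z₀‖ := by linarith
  have s1 := semi (norm_pos_iff.mp ha0) n1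
  have s2 := semi (norm_pos_iff.mp hb0) n2
  have s3 := semi (norm_pos_iff.mp hc0) n3
  -- the increments
  have e1 : x - y - (x₀ - y) = x - x₀ := by abel
  have e2 : x - z - (x₀ - z₀) = (x - x₀) - (z - z₀) := by abel
  have e3 : y - z - (y - z₀) = -(z - z₀) := by abel
  rw [e1] at s1
  rw [e2] at s2
  rw [e3] at s3
  set dx := x - x₀ with hdx
  set dz := z - z₀ with hdz
  -- linear terms
  have L1 : ⟪g (x₀ - y), dx⟫ + ⟪g (x₀ - z₀), dx - dz⟫ + ⟪g (y - z₀), -dz⟫ =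
      -(4 * ⟪x₀, dx⟫) + ((5 / 4) * ⟪e, dz⟫ - 4 * ⟪z₀ + e, dz⟫) := by
    have p1 : g (x₀ - y) + g (x₀ - z₀) = -((4 : ℝ) • x₀) := by
      have : g (x₀ - y) + g (x₀ - z₀) + (4 : ℝ) • x₀ = 0 := h₁
      exact eq_neg_of_add_eq_zero_left this
    have p2 : g (z₀ - x₀) + g (z₀ - y) = (5 / 4 : ℝ) • e - (4 : ℝ) • (z₀ + e) := by
      have : g (z₀ - x₀) + g (z₀ - y) + (4 : ℝ) • (z₀ + e) - (5 / 4 : ℝ) • e = 0 := h₂
      rw [eq_sub_iff_add_eq, ← sub_eq_zero, ← this]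
    have q1 : g (z₀ - x₀) = -g (x₀ - z₀) := by
      rw [← neg_sub, g_neg]
    have q2 : g (z₀ - y) = -g (y - z₀) := by
      rw [← neg_sub, g_neg]
    rw [q1, q2] at p2
    have i1 := congrArg (fun w => ⟪w, dx⟫) p1
    have i2 := congrArg (fun w => ⟪w, dz⟫) p2
    simp only [inner_add_left, inner_neg_left, inner_smul_left, inner_sub_left] at i1 i2
    simp only [inner_sub_right, inner_neg_right, inner_add_left]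
    simp at i1 i2
    linarith
  -- quadratic terms
  have Q1 : ‖dx - dz‖ ^ 2 ≤ 2 * ‖dx‖ ^ 2 + 2 * ‖dz‖ ^ 2 := by
    have := norm_sub_sq_real dx dz
    have h3 := norm_add_sq_real dx dz
    have h4 : 0 ≤ ‖dx + dz‖ ^ 2 := by positivity
    linarith
  have Q2 : ‖-dz‖ ^ 2 = ‖dz‖ ^ 2 := by rw [norm_neg]
  rw [Q2] at s3
  have inv_a : (2 * ‖x₀ - y‖ ^ 3)⁻¹ ≤ 27 / 50 := by
    have : (49 / 50 : ℝ) ^ 3 ≤ ‖x₀ - y‖ ^ 3 := pow_le_pow_left₀ (by norm_num) ha 3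
    rw [inv_le_comm₀ (by positivity) (by norm_num)]
    norm_num at this ⊢
    linarith
  have inv_b : (2 * ‖x₀ - z₀‖ ^ 3)⁻¹ ≤ 27 / 50 := by
    have : (49 / 50 : ℝ) ^ 3 ≤ ‖x₀ - z₀‖ ^ 3 := pow_le_pow_left₀ (by norm_num) hb 3
    rw [inv_le_comm₀ (by positivity) (by norm_num)]
    norm_num at this ⊢
    linarith
  have inv_c : (2 * ‖y - z₀‖ ^ 3)⁻¹ ≤ 7 / 100 := by
    have : (99 / 50 : ℝ) ^ 3 ≤ ‖y - z₀‖ ^ 3 := pow_le_pow_left₀ (by norm_num) hc 3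
    rw [inv_le_comm₀ (by positivity) (by norm_num)]
    norm_num at this ⊢
    linarith
  have m1 : ‖dx‖ ^ 2 * (2 * ‖x₀ - y‖ ^ 3)⁻¹ ≤ ‖dx‖ ^ 2 * (27 / 50) :=
    mul_le_mul_of_nonneg_left inv_a (by positivity)
  have m2 : ‖dx - dz‖ ^ 2 * (2 * ‖x₀ - z₀‖ ^ 3)⁻¹ ≤ (2 * ‖dx‖ ^ 2 + 2 * ‖dz‖ ^ 2) * (27 / 50) := by
    calc _ ≤ ‖dx - dz‖ ^ 2 * (27 / 50) := mul_le_mul_of_nonneg_left inv_b (by positivity)
      _ ≤ _ := by linarith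
  have m3 : ‖dz‖ ^ 2 * (2 * ‖y - z₀‖ ^ 3)⁻¹ ≤ ‖dz‖ ^ 2 * (7 / 100) :=
    mul_le_mul_of_nonneg_left inv_c (by positivity)
  have dI := uI_diff x₀ x
  have dU := u2_diff e z₀ z
  rw [← hdx] at dI
  rw [← hdz] at dU
  simp only [cR]
  have nx : (0 : ℝ) ≤ ‖dx‖ ^ 2 := by positivity
  have nz : (0 : ℝ) ≤ ‖dz‖ ^ 2 := by positivity
  linarith

end Ineq

end Vale.Agent.Lib.P121
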