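import Mathlib

/-!
The local family of triples given by the inverse function theorem.
-/

namespace Vale.Agent.Lib.P121

open scoped RealInnerProductSpace Topology
open Filter Metric

section Deriv

set_option linter.unusedSectionVars false

variable {E : Type*} [NormedAddCommGroup E] [InnerProductSpace ℝ E]

/-- The gradient of the Coulomb kernel. -/
noncomputable def g (w : E) : E := -(‖w‖ ^ 3)⁻¹ • w

/-- The derivative of `g`. -/
noncomputable def dg (w : E) : E →L[ℝ] E :=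
  (-(‖w‖ ^ 3)⁻¹) • ContinuousLinearMap.id ℝ E + (3 * (‖w‖ ^ 5)⁻¹) • (innerSL ℝ w).smulRight w

theorem dg_apply (w v : E) : dg w v = (-(‖w‖ ^ 3)⁻¹) • v + (3 * (‖w‖ ^ 5)⁻¹ * ⟪w, v⟫) • w := by
  simp [dg, mul_smul]

theorem rpow_aux (w : E) (n : ℕ) : (‖w‖ ^ 2) ^ (-(n : ℝ) / 2) = (‖w‖ ^ n)⁻¹ := by
  have h : (0:ℝ) ≤ ‖w‖ := norm_nonneg w
  rw [← Real.rpow_natCast ‖w‖ 2, ← Real.rpow_mul h]
  have : ((2 : ℕ) : ℝ) * (-(n : ℝ) / 2) = -(n : ℝ) := by push_cast; ring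
  rw [this, Real.rpow_neg h, Real.rpow_natCast]

theorem hasStrictFDerivAt_g {w : E} (hw : w ≠ 0) : HasStrictFDerivAt g (dg w) w := by
  have hs : HasStrictFDerivAt (fun w : E => ‖w‖ ^ 2) (2 • innerSL ℝ w) w :=
    hasStrictFDerivAt_norm_sq w
  have hpos : ‖w‖ ^ 2 ≠ 0 := pow_ne_zero 2 (norm_ne_zero_iff.mpr hw)
  have hφ : HasStrictDerivAt (fun s : ℝ => s ^ (-(3 : ℕ) / 2 : ℝ))
      ((-(3 : ℕ) / 2 : ℝ) * (‖w‖ ^ 2) ^ ((-(3 : ℕ) / 2 : ℝ) - 1)) (‖w‖ ^ 2) :=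
    Real.hasStrictDerivAt_rpow_const (Or.inl hpos)
  have hρ := hφ.comp_hasStrictFDerivAt w hs
  have hsm := hρ.smul (hasStrictFDerivAt_id w)
  have hneg := hsm.neg
  have e1 : (-(((fun s : ℝ => s ^ (-(3 : ℕ) / 2 : ℝ)) ∘ fun w : E => ‖w‖ ^ 2) • (id : E → E))) = g := by
    funext x
    simp only [Pi.neg_apply, Pi.smul_apply', Function.comp, id, g]
    rw [rpow_aux x 3, neg_smul]
  rw [e1] at hneg
  refine hneg.congr_fderiv ?_
  ext v
  simp only [dg, Function.comp, id]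
  have h5 : (‖w‖ ^ 2) ^ ((-(3 : ℕ) / 2 : ℝ) - 1) = (‖w‖ ^ 5)⁻¹ := by
    have := rpow_aux w 5
    rw [← this]
    congr 1
    push_cast; ring
  have h3 := rpow_aux w 3
  simp only [neg_apply, add_apply, smul_apply, ContinuousLinearMap.smulRight_apply,
    ContinuousLinearMap.id_apply, innerSL_apply_apply, h5, h3]
  simp
  module

theorem g_neg (w : E) : g (-w) = -g w := by
  simp [g]

end Deriv

section Section

variable {E : Type*} [NormedAddCommGroup E] [InnerProductSpace ℝ E] [FiniteDimensional ℝ E]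

/-- Abstract section: if a partial coordinate together with `Ψ` has invertible derivative, then the
zero set of `Ψ` is locally parametrized by that coordinate. -/
theorem section_exists {Ψ : E × E × E → E × E} {A : (E × E × E) →L[ℝ] (E × E)}
    {T : (E × E × E) →L[ℝ] E} {p₀ : E × E × E} (hΨ : HasStrictFDerivAt Ψ A p₀) (h0 : Ψ p₀ = 0)
    (hinj : ∀ v, T v = 0 → A v = 0 → v = 0) :
    ∃ S : E → E × E × E, ∃ S' : E →L[ℝ] (E × E × E), HasStrictFDerivAt S S' (T p₀) ∧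
      (∀ᶠ t in 𝓝 (T p₀), T (S t) = t ∧ Ψ (S t) = 0) ∧
      (∀ᶠ p in 𝓝 p₀, Ψ p = 0 → S (T p) = p) ∧ S (T p₀) = p₀ := by
  -- the derivative as a linear equivalence
  let L : (E × E × E) →L[ℝ] (E × E × E) := T.prod A
  have hLinj : Function.Injective (L : (E × E × E) →ₗ[ℝ] (E × E × E)) := by
    rw [injective_iff_map_eq_zero]
    intro v hv
    have hv' : (T v, A v) = (0 : E × E × E) := hv
    have h1 : T v = 0 := congrArg Prod.fst hv'
    have h2 : A v = 0 := congrArg Prod.snd hv'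
    exact hinj v h1 h2
  let Le := LinearEquiv.ofInjectiveEndo (L : (E × E × E) →ₗ[ℝ] (E × E × E)) hLinj
  let L' : (E × E × E) ≃L[ℝ] (E × E × E) := Le.toContinuousLinearEquiv
  have hcoe : (L' : (E × E × E) →L[ℝ] (E × E × E)) = L := by
    apply ContinuousLinearMap.ext
    intro v
    rfl
  let Ξ : E × E × E → E × E × E := fun p => (T p, Ψ p)
  have hΞ : HasStrictFDerivAt Ξ (L' : (E × E × E) →L[ℝ] (E × E × E)) p₀ := by
    rw [hcoe]
    exact T.hasStrictFDerivAt.prodMk hΨ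
  have hΞ0 : Ξ p₀ = (T p₀, 0) := by
    simp [Ξ, h0]
  let Loc := hΞ.localInverse Ξ L' p₀
  have hLoc : HasStrictFDerivAt Loc ((L'.symm : (E × E × E) ≃L[ℝ] (E × E × E)) :
      (E × E × E) →L[ℝ] (E × E × E)) (Ξ p₀) := hΞ.to_localInverse
  let J : E →L[ℝ] (E × E × E) := ContinuousLinearMap.inl ℝ E (E × E)
  have hJ : J (T p₀) = Ξ p₀ := by rw [hΞ0]; rfl
  have hS : HasStrictFDerivAt (fun t => Loc (J t)) (((L'.symm : (E × E × E) ≃L[ℝ] (E × E × E)) :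
      (E × E × E) →L[ℝ] (E × E × E)).comp J) (T p₀) :=
    HasStrictFDerivAt.comp (T p₀) (by rw [hJ]; exact hLoc) J.hasStrictFDerivAt
  refine ⟨fun t => Loc (J t), _, hS, ?_, ?_, ?_⟩
  · have hr := hΞ.eventually_right_inverse
    have ht : Tendsto J (𝓝 (T p₀)) (𝓝 (Ξ p₀)) := by
      rw [← hJ]; exact J.continuous.tendsto _
    filter_upwards [ht.eventually hr] with t ht'
    have h1 : Ξ (Loc (J t)) = J t := ht'
    have h2 : J t = (t, 0) := rfl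
    rw [h2] at h1
    exact ⟨congrArg Prod.fst h1, congrArg Prod.snd h1⟩
  · filter_upwards [hΞ.eventually_left_inverse] with p hp hp0
    have : Ξ p = J (T p) := by
      simp [Ξ, hp0, J]
    change Loc (J (T p)) = p
    rw [← this]
    exact hp
  · have := hΞ.eventually_left_inverse.self_of_nhds
    change Loc (J (T p₀)) = p₀
    rw [hJ]
    exact this

end Section

section Family

set_option linter.unusedSectionVars false

variable {E : Type*} [NormedAddCommGroup E] [InnerProductSpace ℝ E] [FiniteDimensional ℝ E]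

/-- First-order system, first component. -/
noncomputable def Ψ₁ (p : E × E × E) : E :=
  g (p.1 - p.2.1) + g (p.1 - p.2.2) + (4 : ℝ) • p.1

/-- First-order system, second component. -/
noncomputable def Ψ₂ (e : E) (p : E × E × E) : E :=
  g (p.2.2 - p.1) + g (p.2.2 - p.2.1) + (4 : ℝ) • (p.2.2 + e) - (5 / 4 : ℝ) • e

/-- The linear coordinate maps. -/
noncomputable def π₀ : (E × E × E) →L[ℝ] E := ContinuousLinearMap.fst ℝ E (E × E)
/-- The linear coordinate maps. -/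
noncomputable def π₁ : (E × E × E) →L[ℝ] E :=
  (ContinuousLinearMap.fst ℝ E E).comp (ContinuousLinearMap.snd ℝ E (E × E))
/-- The linear coordinate maps. -/
noncomputable def π₂ : (E × E × E) →L[ℝ] E :=
  (ContinuousLinearMap.snd ℝ E E).comp (ContinuousLinearMap.snd ℝ E (E × E))

theorem π₀_apply (p : E × E × E) : π₀ p = p.1 := rfl
theorem π₁_apply (p : E × E × E) : π₁ p = p.2.1 := rfl
theorem π₂_apply (p : E × E × E) : π₂ p = p.2.2 := rfl

/-- The derivative of the first-order system at the base point. -/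
noncomputable def A₁ (e : E) : (E × E × E) →L[ℝ] E :=
  (dg (-e)).comp (π₀ - π₁) + (dg e).comp (π₀ - π₂) + (4 : ℝ) • π₀

/-- The derivative of the first-order system at the base point. -/
noncomputable def A₂ (e : E) : (E × E × E) →L[ℝ] E :=
  (dg (-e)).comp (π₂ - π₀) + (dg (-((2 : ℝ) • e))).comp (π₂ - π₁) + (4 : ℝ) • π₂

/-- The base point. -/
def p₀ (e : E) : E × E × E := (0, e, -e)

theorem strict_Ψ {e : E} (he : ‖e‖ = 1) :
    HasStrictFDerivAt (fun p => (Ψ₁ p, Ψ₂ e p)) ((A₁ e).prod (A₂ e)) (p₀ e) := by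
  have he0 : e ≠ 0 := by
    intro h; rw [h] at he; simp at he
  have h2e : (2 : ℝ) • e ≠ 0 := smul_ne_zero (by norm_num) he0
  have key : ∀ (L : (E × E × E) →L[ℝ] E) (w : E), L (p₀ e) = w → w ≠ 0 →
      HasStrictFDerivAt (fun p => g (L p)) ((dg w).comp L) (p₀ e) := by
    intro L w hL hw
    subst hL
    exact (hasStrictFDerivAt_g hw).comp (p₀ e) L.hasStrictFDerivAt
  have a1 : (π₀ - π₁ : (E × E × E) →L[ℝ] E) (p₀ e) = -e := by
    simp [π₀_apply, π₁_apply, p₀]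
  have a2 : (π₀ - π₂ : (E × E × E) →L[ℝ] E) (p₀ e) = e := by
    simp [π₀_apply, π₂_apply, p₀]
  have a3 : (π₂ - π₀ : (E × E × E) →L[ℝ] E) (p₀ e) = -e := by
    simp [π₀_apply, π₂_apply, p₀]
  have a4 : (π₂ - π₁ : (E × E × E) →L[ℝ] E) (p₀ e) = -((2 : ℝ) • e) := by
    simp [π₁_apply, π₂_apply, p₀, two_smul]
    abel
  have d1 := key _ _ a1 (neg_ne_zero.mpr he0)
  have d2 := key _ _ a2 he0
  have d3 := key _ _ a3 (neg_ne_zero.mpr he0)
  have d4 := key _ _ a4 (neg_ne_zero.mpr h2e)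
  have h1 : HasStrictFDerivAt (Ψ₁ (E := E)) (A₁ e) (p₀ e) := by
    exact (d1.add d2).add (((4 : ℝ) • (π₀ : (E × E × E) →L[ℝ] E)).hasStrictFDerivAt)
  have h2 : HasStrictFDerivAt (Ψ₂ e) (A₂ e) (p₀ e) := by
    have h4 : HasStrictFDerivAt (fun p : E × E × E => (4 : ℝ) • (p.2.2 + e))
        ((4 : ℝ) • (π₂ : (E × E × E) →L[ℝ] E)) (p₀ e) := by
      have := (((4 : ℝ) • (π₂ : (E × E × E) →L[ℝ] E)).hasStrictFDerivAt (x := p₀ e)).add_const ((4 : ℝ) • e)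
      refine this.congr_of_eventuallyEq ?_
      filter_upwards with p
      simp [π₂_apply, smul_add]
    exact (((d3.add d4).add h4).sub_const _)
  exact h1.prodMk h2

theorem g_e {e : E} (he : ‖e‖ = 1) : g (-e) = e ∧ g e = -e ∧ g (-((2 : ℝ) • e)) = (1 / 4 : ℝ) • e := by
  refine ⟨?_, ?_, ?_⟩
  · simp [g, he]
  · simp [g, he]
  · simp only [g, norm_neg, norm_smul, he]
    norm_num
    rw [smul_smul]
    norm_num

theorem Ψ_p₀ {e : E} (he : ‖e‖ = 1) : ((Ψ₁ (p₀ e), Ψ₂ e (p₀ e)) : E × E) = 0 := by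
  obtain ⟨h1, h2, h3⟩ := g_e he
  have e1 : Ψ₁ (p₀ e) = 0 := by
    simp only [Ψ₁, p₀, zero_sub, sub_neg_eq_add, zero_add]
    rw [h1, h2]
    simp
  have e2 : Ψ₂ e (p₀ e) = 0 := by
    simp only [Ψ₂, p₀, sub_zero, neg_add_cancel, smul_zero, add_zero]
    have : -e - e = -((2 : ℝ) • e) := by rw [two_smul]; abel
    rw [this, h1, h3]
    module
  simp [e1, e2]

/-- Values of the derivative. -/
theorem dg_e {e : E} (he : ‖e‖ = 1) (v : E) :
    dg (-e) v = -v + ((3 : ℝ) * ⟪e, v⟫) • e ∧ dg e v = -v + ((3 : ℝ) * ⟪e, v⟫) • e ∧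
      dg (-((2 : ℝ) • e)) v = (-(1 / 8) : ℝ) • v + ((3 / 8 : ℝ) * ⟪e, v⟫) • e := by
  refine ⟨?_, ?_, ?_⟩
  · rw [dg_apply]
    simp only [norm_neg, he, inner_neg_left]
    norm_num
  · rw [dg_apply]
    simp only [he]
    norm_num
  · rw [dg_apply]
    simp only [norm_neg, norm_smul, he, inner_neg_left, inner_smul_left]
    norm_num
    rw [smul_smul]
    congr 1
    ring

theorem A₁_apply {e : E} (he : ‖e‖ = 1) (v : E × E × E) :
    A₁ e v = (2 : ℝ) • v.1 + v.2.1 + v.2.2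
      + ((3 : ℝ) * (2 * ⟪e, v.1⟫ - ⟪e, v.2.1⟫ - ⟪e, v.2.2⟫)) • e := by
  simp only [A₁, add_apply, ContinuousLinearMap.comp_apply, sub_apply, smul_apply, π₀_apply,
    π₁_apply, π₂_apply, (dg_e he _).1, (dg_e he _).2.1, inner_sub_right]
  module

theorem A₂_apply {e : E} (he : ‖e‖ = 1) (v : E × E × E) :
    A₂ e v = v.1 + (1 / 8 : ℝ) • v.2.1 + (23 / 8 : ℝ) • v.2.2
      + ((27 / 8 : ℝ) * ⟪e, v.2.2⟫ - 3 * ⟪e, v.1⟫ - (3 / 8 : ℝ) * ⟪e, v.2.1⟫) • e := by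
  simp only [A₂, add_apply, ContinuousLinearMap.comp_apply, sub_apply, smul_apply, π₀_apply,
    π₁_apply, π₂_apply, (dg_e he _).1, (dg_e he _).2.2, inner_sub_right]
  module

/-- Inner product relations for a kernel vector. -/
theorem kernel_inner {e : E} (he : ‖e‖ = 1) {v : E × E × E} (h1 : A₁ e v = 0) (h2 : A₂ e v = 0) :
    4 * ⟪e, v.1⟫ - ⟪e, v.2.1⟫ - ⟪e, v.2.2⟫ = 0 ∧
      -2 * ⟪e, v.1⟫ - (1 / 4) * ⟪e, v.2.1⟫ + (25 / 4) * ⟪e, v.2.2⟫ = 0 := by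
  have hee : ⟪e, e⟫ = (1 : ℝ) := by
    rw [real_inner_self_eq_norm_sq, he]; norm_num
  rw [A₁_apply he] at h1
  rw [A₂_apply he] at h2
  have i1 := congrArg (fun w => ⟪e, w⟫) h1
  have i2 := congrArg (fun w => ⟪e, w⟫) h2
  simp only [inner_add_right, inner_smul_right, inner_zero_right, hee, mul_one] at i1 i2
  constructor <;> linarith

theorem kernel_vec {e : E} (he : ‖e‖ = 1) {v : E × E × E} (h1 : A₁ e v = 0) (h2 : A₂ e v = 0)
    (h0 : ⟪e, v.1⟫ = 0 ∧ ⟪e, v.2.1⟫ = 0 ∧ ⟪e, v.2.2⟫ = 0) :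
    (2 : ℝ) • v.1 + v.2.1 + v.2.2 = 0 ∧ v.1 + (1 / 8 : ℝ) • v.2.1 + (23 / 8 : ℝ) • v.2.2 = 0 := by
  rw [A₁_apply he, h0.1, h0.2.1, h0.2.2] at h1
  rw [A₂_apply he, h0.1, h0.2.1, h0.2.2] at h2
  have z1 : ((3 : ℝ) * (2 * 0 - 0 - 0)) • e = 0 := by simp
  have z2 : ((27 / 8 : ℝ) * 0 - 3 * 0 - (3 / 8 : ℝ) * 0) • e = 0 := by simp
  rw [z1, add_zero] at h1
  rw [z2, add_zero] at h2
  exact ⟨h1, h2⟩

theorem inj_π₀ {e : E} (he : ‖e‖ = 1) (v : E × E × E) (hT : π₀ v = 0)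
    (hA : ((A₁ e).prod (A₂ e)) v = 0) : v = 0 := by
  have h1 : A₁ e v = 0 := congrArg Prod.fst hA
  have h2 : A₂ e v = 0 := congrArg Prod.snd hA
  rw [π₀_apply] at hT
  obtain ⟨i1, i2⟩ := kernel_inner he h1 h2
  have ha : ⟪e, v.1⟫ = 0 := by rw [hT]; simp
  rw [ha] at i1 i2
  have hd : ⟪e, v.2.2⟫ = 0 := by linarith
  have hb : ⟪e, v.2.1⟫ = 0 := by linarith
  obtain ⟨v1, v2⟩ := kernel_vec he h1 h2 ⟨ha, hb, hd⟩
  rw [hT] at v1 v2
  simp only [smul_zero, zero_add] at v1 v2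
  have hb' : v.2.1 = -v.2.2 := eq_neg_of_add_eq_zero_left v1
  rw [hb'] at v2
  have hd' : (22 / 8 : ℝ) • v.2.2 = 0 := by
    rw [← v2]; module
  have hd'' : v.2.2 = 0 := (smul_eq_zero.mp hd').resolve_left (by norm_num)
  rw [hd''] at hb'
  ext1
  · exact hT
  ext1
  · simpa using hb'
  · exact hd''

theorem inj_π₁ {e : E} (he : ‖e‖ = 1) (v : E × E × E) (hT : π₁ v = 0)
    (hA : ((A₁ e).prod (A₂ e)) v = 0) : v = 0 := by
  have h1 : A₁ e v = 0 := congrArg Prod.fst hA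
  have h2 : A₂ e v = 0 := congrArg Prod.snd hA
  rw [π₁_apply] at hT
  obtain ⟨i1, i2⟩ := kernel_inner he h1 h2
  have hb : ⟪e, v.2.1⟫ = 0 := by rw [hT]; simp
  rw [hb] at i1 i2
  have ha : ⟪e, v.1⟫ = 0 := by linarith
  have hd : ⟪e, v.2.2⟫ = 0 := by linarith
  obtain ⟨v1, v2⟩ := kernel_vec he h1 h2 ⟨ha, hb, hd⟩
  rw [hT] at v1 v2
  simp only [smul_zero, add_zero] at v1 v2
  have hd' : v.2.2 = -((2 : ℝ) • v.1) := eq_neg_of_add_eq_zero_right v1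
  rw [hd'] at v2
  have ha' : (-(19 / 4) : ℝ) • v.1 = 0 := by
    rw [← v2]; module
  have ha'' : v.1 = 0 := (smul_eq_zero.mp ha').resolve_left (by norm_num)
  rw [ha''] at hd'
  ext1
  · exact ha''
  ext1
  · exact hT
  · simpa using hd'

theorem inj_π₂ {e : E} (he : ‖e‖ = 1) (v : E × E × E) (hT : π₂ v = 0)
    (hA : ((A₁ e).prod (A₂ e)) v = 0) : v = 0 := by
  have h1 : A₁ e v = 0 := congrArg Prod.fst hA
  have h2 : A₂ e v = 0 := congrArg Prod.snd hA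
  rw [π₂_apply] at hT
  obtain ⟨i1, i2⟩ := kernel_inner he h1 h2
  have hd : ⟪e, v.2.2⟫ = 0 := by rw [hT]; simp
  rw [hd] at i1 i2
  have ha : ⟪e, v.1⟫ = 0 := by linarith
  have hb : ⟪e, v.2.1⟫ = 0 := by linarith
  obtain ⟨v1, v2⟩ := kernel_vec he h1 h2 ⟨ha, hb, hd⟩
  rw [hT] at v1 v2
  simp only [smul_zero, add_zero] at v1 v2
  have hb' : v.2.1 = -((2 : ℝ) • v.1) := eq_neg_of_add_eq_zero_right v1
  rw [hb'] at v2
  have ha' : (3 / 4 : ℝ) • v.1 = 0 := by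
    rw [← v2]; module
  have ha'' : v.1 = 0 := (smul_eq_zero.mp ha').resolve_left (by norm_num)
  rw [ha''] at hb'
  ext1
  · exact ha''
  ext1
  · simpa using hb'
  · exact hT

/-- The local family. -/
theorem exists_family {e : E} (he : ‖e‖ = 1) {δ : ℝ} (hδ : 0 < δ) :
    ∃ r : ℝ, 0 < r ∧ r ≤ δ ∧ ∃ B C X₁ X₂ : E → E,
      ContinuousOn B (ball 0 r) ∧ ContinuousOn C (ball 0 r) ∧
      (∀ x ∈ ball (0 : E) r, Ψ₁ (x, B x, C x) = 0 ∧ Ψ₂ e (x, B x, C x) = 0 ∧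
        ‖B x - e‖ < δ ∧ ‖C x + e‖ < δ ∧ X₁ (B x) = x ∧ X₂ (C x) = x) ∧
      (∃ K : NNReal, LipschitzOnWith K X₁ (B '' ball 0 r)) ∧
      (∃ K : NNReal, LipschitzOnWith K X₂ (C '' ball 0 r)) := by
  have hΨ := strict_Ψ he
  have h0 := Ψ_p₀ he
  obtain ⟨S₀, S₀', hS₀, r₀, -, e₀⟩ := section_exists hΨ h0 (T := π₀) (fun v h1 h2 => inj_π₀ he v h1 h2)
  obtain ⟨S₁, S₁', hS₁, -, l₁, -⟩ := section_exists hΨ h0 (T := π₁) (fun v h1 h2 => inj_π₁ he v h1 h2)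
  obtain ⟨S₂, S₂', hS₂, -, l₂, -⟩ := section_exists hΨ h0 (T := π₂) (fun v h1 h2 => inj_π₂ he v h1 h2)
  -- Lipschitz neighbourhoods
  obtain ⟨K₀, s₀, hs₀, Lip₀⟩ := hS₀.exists_lipschitzOnWith
  obtain ⟨K₁, s₁, hs₁, Lip₁⟩ := hS₁.exists_lipschitzOnWith
  obtain ⟨K₂, s₂, hs₂, Lip₂⟩ := hS₂.exists_lipschitzOnWith
  have ht0 : π₀ (p₀ e) = (0 : E) := rfl
  have ht1 : π₁ (p₀ e) = e := rfl
  have ht2 : π₂ (p₀ e) = -e := rfl
  rw [ht0] at hS₀ r₀ e₀ hs₀
  -- the properties near the base point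
  have cont₁ : ∀ᶠ p in 𝓝 (p₀ e), p.2.1 ∈ s₁ := by
    have : Tendsto (fun p : E × E × E => p.2.1) (𝓝 (p₀ e)) (𝓝 e) := by
      have := (π₁ : (E × E × E) →L[ℝ] E).continuous.tendsto (p₀ e)
      rwa [ht1] at this
    exact this.eventually hs₁
  have cont₂ : ∀ᶠ p in 𝓝 (p₀ e), p.2.2 ∈ s₂ := by
    have : Tendsto (fun p : E × E × E => p.2.2) (𝓝 (p₀ e)) (𝓝 (-e)) := by
      have := (π₂ : (E × E × E) →L[ℝ] E).continuous.tendsto (p₀ e)
      rwa [ht2] at this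
    exact this.eventually hs₂
  have near₁ : ∀ᶠ p in 𝓝 (p₀ e), ‖p.2.1 - e‖ < δ := by
    have : Tendsto (fun p : E × E × E => ‖p.2.1 - e‖) (𝓝 (p₀ e)) (𝓝 0) := by
      have h := (π₁ : (E × E × E) →L[ℝ] E).continuous.tendsto (p₀ e)
      rw [ht1] at h
      have h' := (h.sub_const e).norm
      rw [sub_self, norm_zero] at h'
      exact h'
    exact this.eventually (gt_mem_nhds hδ)
  have near₂ : ∀ᶠ p in 𝓝 (p₀ e), ‖p.2.2 + e‖ < δ := by
    have : Tendsto (fun p : E × E × E => ‖p.2.2 + e‖) (𝓝 (p₀ e)) (𝓝 0) := by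
      have h := (π₂ : (E × E × E) →L[ℝ] E).continuous.tendsto (p₀ e)
      rw [ht2] at h
      have h' := (h.add_const e).norm
      rw [neg_add_cancel, norm_zero] at h'
      exact h'
    exact this.eventually (gt_mem_nhds hδ)
  have htend : Tendsto S₀ (𝓝 0) (𝓝 (p₀ e)) := by
    have := hS₀.continuousAt.tendsto
    rwa [e₀] at this
  have hall : ∀ᶠ t in 𝓝 (0 : E), (π₀ (S₀ t) = t ∧ ((Ψ₁ (S₀ t), Ψ₂ e (S₀ t)) : E × E) = 0) ∧ t ∈ s₀ ∧
      (((Ψ₁ (S₀ t), Ψ₂ e (S₀ t)) : E × E) = 0 → S₁ (π₁ (S₀ t)) = S₀ t) ∧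
      (((Ψ₁ (S₀ t), Ψ₂ e (S₀ t)) : E × E) = 0 → S₂ (π₂ (S₀ t)) = S₀ t) ∧
      (S₀ t).2.1 ∈ s₁ ∧ (S₀ t).2.2 ∈ s₂ ∧ ‖(S₀ t).2.1 - e‖ < δ ∧ ‖(S₀ t).2.2 + e‖ < δ := by
    filter_upwards [r₀, hs₀, htend.eventually l₁, htend.eventually l₂, htend.eventually cont₁,
      htend.eventually cont₂, htend.eventually near₁, htend.eventually near₂] with t a1 a2 a3 a4 a5 a6
      a7 a8
    exact ⟨a1, a2, a3, a4, a5, a6, a7, a8⟩
  obtain ⟨r', hr', hball⟩ := Metric.eventually_nhds_iff_ball.mp hall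
  refine ⟨min r' δ, lt_min hr' hδ, min_le_right _ _, fun x => (S₀ x).2.1, fun x => (S₀ x).2.2,
    fun y => (S₁ y).1, fun z => (S₂ z).1, ?_, ?_, ?_, ?_, ?_⟩
  · have hc : ContinuousOn S₀ (ball 0 (min r' δ)) := by
      apply Lip₀.continuousOn.mono
      intro t ht
      exact (hball t (ball_subset_ball (min_le_left _ _) ht)).2.1
    exact ((π₁ : (E × E × E) →L[ℝ] E).continuous.comp_continuousOn hc)
  · have hc : ContinuousOn S₀ (ball 0 (min r' δ)) := by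
      apply Lip₀.continuousOn.mono
      intro t ht
      exact (hball t (ball_subset_ball (min_le_left _ _) ht)).2.1
    exact ((π₂ : (E × E × E) →L[ℝ] E).continuous.comp_continuousOn hc)
  · intro x hx
    obtain ⟨⟨b1, b2⟩, -, b3, b4, -, -, b7, b8⟩ := hball x (ball_subset_ball (min_le_left _ _) hx)
    have hx1 : (S₀ x).1 = x := b1
    have hrep : (x, (S₀ x).2.1, (S₀ x).2.2) = S₀ x := by
      ext1
      · exact hx1.symm
      · rfl
    have z1 : Ψ₁ (S₀ x) = 0 := congrArg Prod.fst b2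
    have z2 : Ψ₂ e (S₀ x) = 0 := congrArg Prod.snd b2
    refine ⟨by rw [hrep]; exact z1, by rw [hrep]; exact z2, b7, b8, ?_, ?_⟩
    · have := b3 b2
      change (S₁ (π₁ (S₀ x))).1 = x
      rw [this]; exact hx1
    · have := b4 b2
      change (S₂ (π₂ (S₀ x))).1 = x
      rw [this]; exact hx1
  · refine ⟨K₁, ?_⟩
    have : LipschitzOnWith K₁ (fun y => (S₁ y).1) s₁ := by
      intro a ha b hb
      calc edist (S₁ a).1 (S₁ b).1 ≤ edist (S₁ a) (S₁ b) := by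
            rw [Prod.edist_eq]; exact le_max_left _ _
        _ ≤ K₁ * edist a b := Lip₁ ha hb
    apply this.mono
    rintro _ ⟨x, hx, rfl⟩
    exact (hball x (ball_subset_ball (min_le_left _ _) hx)).2.2.2.2.1
  · refine ⟨K₂, ?_⟩
    have : LipschitzOnWith K₂ (fun y => (S₂ y).1) s₂ := by
      intro a ha b hb
      calc edist (S₂ a).1 (S₂ b).1 ≤ edist (S₂ a) (S₂ b) := by
            rw [Prod.edist_eq]; exact le_max_left _ _
        _ ≤ K₂ * edist a b := Lip₂ ha hb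
    apply this.mono
    rintro _ ⟨x, hx, rfl⟩
    exact (hball x (ball_subset_ball (min_le_left _ _) hx)).2.2.2.2.2.1

end Family

end Vale.Agent.Lib.P121
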